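import Mathlib

/-! Small homological toolkit: projective dimension and Ext-vanishing along short exact sequences
of modules given by linear maps. -/

set_option autoImplicit false

namespace Crest.Agent.FinDim

open CategoryTheory CategoryTheory.Abelian

variable {A : Type} [Ring A]

/-- projective dimension `< n` -/
abbrev PD (A : Type) [Ring A] (W : Type) [AddCommGroup W] [Module A W] (n : ℕ) : Prop :=
  HasProjectiveDimensionLT (ModuleCat.of A W) n

/-- vanishing of `Ext^i(W, S)` -/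
def Van (A : Type) [Ring A] (W : Type) [AddCommGroup W] [Module A W]
    (S : Type) [AddCommGroup S] [Module A S] (i : ℕ) : Prop :=
  ∀ x : Ext (ModuleCat.of A W) (ModuleCat.of A S) i, x = 0

section ses

variable {W₁ W₂ W₃ : Type} [AddCommGroup W₁] [Module A W₁] [AddCommGroup W₂] [Module A W₂]
  [AddCommGroup W₃] [Module A W₃]

/-- a short exact sequence of modules -/
structure SES (f : W₁ →ₗ[A] W₂) (g : W₂ →ₗ[A] W₃) : Prop where
  inj : Function.Injective f
  ex : Function.Exact f g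
  surj : Function.Surjective g

theorem SES.shortExact {f : W₁ →ₗ[A] W₂} {g : W₂ →ₗ[A] W₃} (h : SES f g) :
    (ModuleCat.shortComplexOfCompEqZero f g h.ex.linearMap_comp_eq_zero).ShortExact :=
  ModuleCat.shortComplex_shortExact _ h.ex h.inj h.surj

theorem SES.pd₁ {f : W₁ →ₗ[A] W₂} {g : W₂ →ₗ[A] W₃} (h : SES f g) {n : ℕ}
    (h₂ : PD A W₂ n) (h₃ : PD A W₃ (n + 1)) : PD A W₁ n :=
  h.shortExact.hasProjectiveDimensionLT_X₁ n h₂ h₃

theorem SES.pd₂ {f : W₁ →ₗ[A] W₂} {g : W₂ →ₗ[A] W₃} (h : SES f g) {n : ℕ}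
    (h₁ : PD A W₁ n) (h₃ : PD A W₃ n) : PD A W₂ n :=
  h.shortExact.hasProjectiveDimensionLT_X₂ n h₁ h₃

theorem SES.pd₃ {f : W₁ →ₗ[A] W₂} {g : W₂ →ₗ[A] W₃} (h : SES f g) {n : ℕ}
    (h₁ : PD A W₁ n) (h₂ : PD A W₂ (n + 1)) : PD A W₃ (n + 1) :=
  h.shortExact.hasProjectiveDimensionLT_X₃ n h₁ h₂

theorem PD.mono {n m : ℕ} (h : PD A W₁ n) (hnm : n ≤ m) : PD A W₁ m :=
  haveI := h
  hasProjectiveDimensionLT_of_ge _ n m hnm

theorem PD.of_projective [Module.Projective A W₁] {n : ℕ} (hn : 1 ≤ n) : PD A W₁ n := by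
  have : PD A W₁ 1 := inferInstance
  exact this.mono hn

theorem PD.of_subsingleton [Subsingleton W₁] (n : ℕ) : PD A W₁ n := by
  have h : Limits.IsZero (ModuleCat.of A W₁) := ModuleCat.isZero_of_subsingleton _
  exact PD.mono h.hasProjectiveDimensionLT_zero (Nat.zero_le n)

variable {S : Type} [AddCommGroup S] [Module A S]

theorem PD.van {n i : ℕ} (h : PD A W₁ n) (hi : n ≤ i) : Van A W₁ S i := fun x =>
  haveI := h
  x.eq_zero_of_hasProjectiveDimensionLT n hi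

theorem SES.van₁ {f : W₁ →ₗ[A] W₂} {g : W₂ →ₗ[A] W₃} (h : SES f g) {i : ℕ}
    (h₂ : Van A W₂ S i) (h₃ : Van A W₃ S (i + 1)) : Van A W₁ S i := by
  intro x₁
  obtain ⟨x₂, rfl⟩ := Ext.contravariant_sequence_exact₁ h.shortExact _ x₁ (add_comm _ _) (h₃ _)
  rw [h₂ x₂, Ext.comp_zero]

theorem SES.van₂ {f : W₁ →ₗ[A] W₂} {g : W₂ →ₗ[A] W₃} (h : SES f g) {i : ℕ}
    (h₁ : Van A W₁ S i) (h₃ : Van A W₃ S i) : Van A W₂ S i := by
  intro x₂
  obtain ⟨x₃, rfl⟩ := Ext.contravariant_sequence_exact₂ h.shortExact _ x₂ (h₁ _)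
  rw [h₃ x₃, Ext.comp_zero]

theorem SES.van₃ {f : W₁ →ₗ[A] W₂} {g : W₂ →ₗ[A] W₃} (h : SES f g) {i : ℕ}
    (h₁ : Van A W₁ S i) (h₂ : Van A W₂ S (i + 1)) : Van A W₃ S (i + 1) := by
  intro x₃
  obtain ⟨x₁, rfl⟩ := Ext.contravariant_sequence_exact₃ h.shortExact _ x₃ (h₂ _) (add_comm _ _)
  rw [h₁ x₁, Ext.comp_zero]

theorem van_zero_iff : Van A W₁ S 0 ↔ ∀ φ : W₁ →ₗ[A] S, φ = 0 := by
  constructor
  · intro h φ
    have := h (Ext.mk₀ (ModuleCat.ofHom φ))
    rw [Ext.mk₀_eq_zero_iff] at this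
    have h2 := congrArg ModuleCat.Hom.hom this
    simpa using h2
  · intro h x
    obtain ⟨f, rfl⟩ := Ext.homEquiv₀.symm.surjective x
    have : f = 0 := by
      ext1
      exact h _
    subst this
    simp

theorem ses_ker (g : W₂ →ₗ[A] W₃) (hg : Function.Surjective g) :
    SES (LinearMap.ker g).subtype g :=
  ⟨Subtype.val_injective, LinearMap.exact_subtype_ker_map g, hg⟩

theorem ses_prod : SES (LinearMap.inl A W₁ W₃) (LinearMap.snd A W₁ W₃) :=
  ⟨LinearMap.inl_injective, Function.Exact.inl_snd, LinearMap.snd_surjective⟩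

/-- `0 → W₁ → W₂ → range g → 0` -/
theorem ses_range {f : W₁ →ₗ[A] W₂} {g : W₂ →ₗ[A] W₃} (hf : Function.Injective f)
    (h : Function.Exact f g) : SES f g.rangeRestrict := by
  refine ⟨hf, fun y => ?_, g.surjective_rangeRestrict⟩
  rw [← h y, ← Subtype.coe_inj]
  simp

/-- `0 → range f → W₂ → range g → 0` -/
theorem ses_range' {f : W₁ →ₗ[A] W₂} {g : W₂ →ₗ[A] W₃}
    (h : Function.Exact f g) : SES (LinearMap.range f).subtype g.rangeRestrict := by
  refine ses_range Subtype.val_injective fun y => ?_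
  rw [h y]
  simp

end ses

end Crest.Agent.FinDim
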