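import Mathlib
import Crest.Agent.FinDim.Homol

/-! The "Beilinson algebra" of a `ℤ`-filtered algebra: `5 × 5` matrices with entry `(i, j)` in
filtration degree `i - j`, and the modules attached to filtered modules. -/

set_option autoImplicit false
set_option linter.unusedSectionVars false

namespace Crest.Agent.FinDim

open scoped Matrix.Module

variable {R : Type} [Ring R] [Algebra ℂ R]

/-- a multiplicative `ℤ`-filtration -/
structure Filt (R : Type) [Ring R] [Algebra ℂ R] where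
  G : ℤ → Submodule ℂ R
  one_mem : (1 : R) ∈ G 0
  mul_mem : ∀ {a b : ℤ} {x y : R}, x ∈ G a → y ∈ G b → x * y ∈ G (a + b)
  fd : ∀ a, FiniteDimensional ℂ (G a)

/-- the Beilinson algebra, as a subalgebra -/
def BeilS (𝒢 : Filt R) : Subalgebra ℂ (Matrix (Fin 5) (Fin 5) R) where
  carrier := {a | ∀ i j : Fin 5, a i j ∈ 𝒢.G ((i : ℤ) - (j : ℤ))}
  mul_mem' := by
    intro a b ha hb i j
    rw [Matrix.mul_apply]
    refine Submodule.sum_mem _ fun l _ => ?_
    have := 𝒢.mul_mem (ha i l) (hb l j)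
    rwa [show (i : ℤ) - l + (l - j) = i - j by ring] at this
  add_mem' := fun ha hb i j => Submodule.add_mem _ (ha i j) (hb i j)
  algebraMap_mem' := by
    intro c i j
    rw [Matrix.algebraMap_matrix_apply]
    split_ifs with h
    · subst h
      rw [sub_self, Algebra.algebraMap_eq_smul_one]
      exact Submodule.smul_mem _ _ 𝒢.one_mem
    · exact Submodule.zero_mem _

/-- the Beilinson algebra -/
def Beil (𝒢 : Filt R) : Type := BeilS 𝒢

instance (𝒢 : Filt R) : Ring (Beil 𝒢) := inferInstanceAs (Ring (BeilS 𝒢))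
instance (𝒢 : Filt R) : Algebra ℂ (Beil 𝒢) := inferInstanceAs (Algebra ℂ (BeilS 𝒢))

/-- underlying matrix -/
def Beil.valHom (𝒢 : Filt R) : Beil 𝒢 →+* Matrix (Fin 5) (Fin 5) R := (BeilS 𝒢).val.toRingHom

theorem Beil.ext {𝒢 : Filt R} {a b : Beil 𝒢} (h : ∀ i j, a.1 i j = b.1 i j) : a = b :=
  Subtype.ext (Matrix.ext h)

instance (𝒢 : Filt R) : FiniteDimensional ℂ (Beil 𝒢) := by
  have := 𝒢.fd
  let φ : Beil 𝒢 →ₗ[ℂ] (∀ i j : Fin 5, 𝒢.G ((i : ℤ) - (j : ℤ))) :=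
    { toFun := fun a i j => ⟨a.1 i j, a.2 i j⟩
      map_add' := fun a b => rfl
      map_smul' := fun c a => rfl }
  refine FiniteDimensional.of_injective φ fun a b h => Beil.ext fun i j => ?_
  exact congrArg Subtype.val (congrFun (congrFun h i) j)

/-- a compatible filtration on a module -/
structure MFilt (𝒢 : Filt R) (Y : Type) [AddCommGroup Y] [Module R Y] where
  F : ℤ → AddSubgroup Y
  smul_mem : ∀ {a b : ℤ} {r : R} {y : Y}, r ∈ 𝒢.G a → y ∈ F b → r • y ∈ F (a + b)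

variable {𝒢 : Filt R} {Y Y' Y'' : Type} [AddCommGroup Y] [Module R Y] [AddCommGroup Y']
  [Module R Y'] [AddCommGroup Y''] [Module R Y'']

/-- shift of a filtration -/
def MFilt.shift (Φ : MFilt 𝒢 Y) (j : ℤ) : MFilt 𝒢 Y where
  F b := Φ.F (b - j)
  smul_mem := by
    intro a b r y hr hy
    have := Φ.smul_mem hr hy
    rwa [show a + (b - j) = a + b - j by ring] at this

/-- product filtration -/
def MFilt.prod (Φ : MFilt 𝒢 Y) (Φ' : MFilt 𝒢 Y') : MFilt 𝒢 (Y × Y') where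
  F b := (Φ.F b).prod (Φ'.F b)
  smul_mem := fun hr hy => ⟨Φ.smul_mem hr hy.1, Φ'.smul_mem hr hy.2⟩

/-- the constant filtration -/
def MFilt.top (𝒢 : Filt R) (Y : Type) [AddCommGroup Y] [Module R Y] : MFilt 𝒢 Y where
  F _ := ⊤
  smul_mem := fun _ _ => trivial

/-- column vectors, as a module over the Beilinson algebra -/
def Col (_𝒢 : Filt R) (Y : Type) : Type := Fin 5 → Y

instance : AddCommGroup (Col 𝒢 Y) := inferInstanceAs (AddCommGroup (Fin 5 → Y))

instance : Module (Beil 𝒢) (Col 𝒢 Y) :=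
  Module.compHom (Fin 5 → Y) (Beil.valHom 𝒢)

theorem Col.smul_apply (a : Beil 𝒢) (v : Col 𝒢 Y) (i : Fin 5) :
    (a • v) i = ∑ j, a.1 i j • v j := rfl

@[simp] theorem Col.add_apply (v w : Col 𝒢 Y) (i : Fin 5) : (v + w) i = v i + w i := rfl
@[simp] theorem Col.sub_apply (v w : Col 𝒢 Y) (i : Fin 5) : (v - w) i = v i - w i := rfl
@[simp] theorem Col.neg_apply (v : Col 𝒢 Y) (i : Fin 5) : (-v) i = - v i := rfl
@[simp] theorem Col.zero_apply (i : Fin 5) : (0 : Col 𝒢 Y) i = 0 := rfl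

theorem Col.sum_apply {κ : Type} (s : Finset κ) (v : κ → Col 𝒢 Y) (i : Fin 5) :
    (∑ t ∈ s, v t) i = ∑ t ∈ s, v t i := Finset.sum_apply i s v

/-- the module over the Beilinson algebra attached to a filtered module -/
def XM (Φ : MFilt 𝒢 Y) : Submodule (Beil 𝒢) (Col 𝒢 Y) where
  carrier := {v | ∀ i : Fin 5, v i ∈ Φ.F (i : ℤ)}
  add_mem' := fun ha hb i => AddSubgroup.add_mem _ (ha i) (hb i)
  zero_mem' := fun _ => AddSubgroup.zero_mem _
  smul_mem' := by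
    intro a v hv i
    rw [Col.smul_apply]
    refine AddSubgroup.sum_mem _ fun l _ => ?_
    have := Φ.smul_mem (a.2 i l) (hv l)
    rwa [show (i : ℤ) - l + l = i by ring] at this

theorem XM.ext {Φ : MFilt 𝒢 Y} {v w : XM Φ} (h : ∀ i, v.1 i = w.1 i) : v = w :=
  Subtype.ext (funext h)

/-- map induced by a filtered linear map -/
def XMap (Φ : MFilt 𝒢 Y) (Φ' : MFilt 𝒢 Y') (f : Y →ₗ[R] Y')
    (hf : ∀ (i : Fin 5) y, y ∈ Φ.F i → f y ∈ Φ'.F i) : XM Φ →ₗ[Beil 𝒢] XM Φ' where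
  toFun v := ⟨fun i => f (v.1 i), fun i => hf i _ (v.2 i)⟩
  map_add' v w := XM.ext fun i => by
    change f (v.1 i + w.1 i) = f (v.1 i) + f (w.1 i)
    rw [map_add]
  map_smul' a v := XM.ext fun i => by
    change f (∑ j, a.1 i j • v.1 j) = ∑ j, a.1 i j • f (v.1 j)
    simp [map_sum]

@[simp] theorem XMap_apply (Φ : MFilt 𝒢 Y) (Φ' : MFilt 𝒢 Y') (f : Y →ₗ[R] Y')
    (hf : ∀ (i : Fin 5) y, y ∈ Φ.F i → f y ∈ Φ'.F i) (v : XM Φ) (i : Fin 5) :
    (XMap Φ Φ' f hf v).1 i = f (v.1 i) := rfl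

theorem XMap_injective (Φ : MFilt 𝒢 Y) (Φ' : MFilt 𝒢 Y') (f : Y →ₗ[R] Y')
    (hf : ∀ (i : Fin 5) y, y ∈ Φ.F i → f y ∈ Φ'.F i)
    (h : ∀ (i : Fin 5) y, y ∈ Φ.F i → f y = 0 → y = 0) :
    Function.Injective (XMap Φ Φ' f hf) := by
  rw [injective_iff_map_eq_zero]
  intro v hv
  refine XM.ext fun i => h i _ (v.2 i) ?_
  exact congrFun (congrArg Subtype.val hv) i

theorem mem_range_XMap (Φ : MFilt 𝒢 Y) (Φ' : MFilt 𝒢 Y') (f : Y →ₗ[R] Y')
    (hf : ∀ (i : Fin 5) y, y ∈ Φ.F i → f y ∈ Φ'.F i) (w : XM Φ') :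
    w ∈ LinearMap.range (XMap Φ Φ' f hf) ↔ ∀ i : Fin 5, ∃ y ∈ Φ.F i, f y = w.1 i := by
  constructor
  · rintro ⟨v, rfl⟩ i
    exact ⟨v.1 i, v.2 i, rfl⟩
  · intro h
    choose y hy hy' using h
    exact ⟨⟨y, hy⟩, XM.ext hy'⟩

theorem XMap_surjective (Φ : MFilt 𝒢 Y) (Φ' : MFilt 𝒢 Y') (f : Y →ₗ[R] Y')
    (hf : ∀ (i : Fin 5) y, y ∈ Φ.F i → f y ∈ Φ'.F i)
    (h : ∀ (i : Fin 5) y', y' ∈ Φ'.F i → ∃ y ∈ Φ.F i, f y = y') :
    Function.Surjective (XMap Φ Φ' f hf) := fun w =>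
  (mem_range_XMap Φ Φ' f hf w).2 fun i => h i _ (w.2 i)

theorem XMap_exact (Φ : MFilt 𝒢 Y) (Φ' : MFilt 𝒢 Y') (Φ'' : MFilt 𝒢 Y'') (f : Y →ₗ[R] Y')
    (hf : ∀ (i : Fin 5) y, y ∈ Φ.F i → f y ∈ Φ'.F i) (g : Y' →ₗ[R] Y'')
    (hg : ∀ (i : Fin 5) y, y ∈ Φ'.F i → g y ∈ Φ''.F i)
    (h0 : ∀ y, g (f y) = 0)
    (h : ∀ (i : Fin 5) y', y' ∈ Φ'.F i → g y' = 0 → ∃ y ∈ Φ.F i, f y = y') :
    Function.Exact (XMap Φ Φ' f hf) (XMap Φ' Φ'' g hg) := by
  intro w
  constructor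
  · intro hw
    exact (mem_range_XMap Φ Φ' f hf w).2 fun i =>
      h i _ (w.2 i) (congrFun (congrArg Subtype.val hw) i)
  · rintro ⟨v, rfl⟩
    exact XM.ext fun i => h0 _

/-- `Φ` is a filtered-free module with finitely many generators in degree `j` -/
structure FreeAt (Φ : MFilt 𝒢 Y) (j : Fin 5) where
  κ : Type
  [fin : Fintype κ]
  g : κ → Y
  φ : κ → Y →ₗ[R] R
  g_mem : ∀ t, g t ∈ Φ.F j
  φ_mem : ∀ t (b : ℤ) y, y ∈ Φ.F b → φ t y ∈ 𝒢.G (b - j)
  sum_eq : ∀ y, ∑ t, φ t y • g t = y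

attribute [instance] FreeAt.fin

/-- product of free filtered modules -/
def FreeAt.prod {Φ : MFilt 𝒢 Y} {Φ' : MFilt 𝒢 Y'} {j : Fin 5} (h : FreeAt Φ j)
    (h' : FreeAt Φ' j) : FreeAt (Φ.prod Φ') j where
  κ := h.κ ⊕ h'.κ
  g := Sum.elim (fun t => (h.g t, 0)) (fun t => (0, h'.g t))
  φ := Sum.elim (fun t => h.φ t ∘ₗ LinearMap.fst R Y Y') (fun t => h'.φ t ∘ₗ LinearMap.snd R Y Y')
  g_mem := by
    rintro (t | t)
    · exact ⟨h.g_mem t, AddSubgroup.zero_mem _⟩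
    · exact ⟨AddSubgroup.zero_mem _, h'.g_mem t⟩
  φ_mem := by
    rintro (t | t) b y hy
    · exact h.φ_mem t b _ hy.1
    · exact h'.φ_mem t b _ hy.2
  sum_eq := by
    rintro ⟨y, y'⟩
    rw [Fintype.sum_sum_type]
    ext
    · simp [Prod.fst_sum, h.sum_eq]
    · simp [Prod.snd_sum, h'.sum_eq]

namespace FreeAt

variable {Φ : MFilt 𝒢 Y} {j : Fin 5} (h : FreeAt Φ j)

/-- the generators, as column vectors -/
def gen (t : h.κ) : XM Φ :=
  ⟨fun i => if i = j then h.g t else 0, fun i => by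
    by_cases hi : i = j
    · subst hi; simpa using h.g_mem t
    · simp [hi]⟩

/-- the coefficient matrices -/
def coef (t : h.κ) : XM Φ →ₗ[Beil 𝒢] Beil 𝒢 where
  toFun v := ⟨Matrix.of fun i l => if l = j then h.φ t (v.1 i) else 0, fun i l => by
    by_cases hl : l = j
    · subst hl; simpa using h.φ_mem t _ _ (v.2 i)
    · simp [hl]⟩
  map_add' v w := by
    refine Beil.ext fun i l => ?_
    change (if l = j then h.φ t (v.1 i + w.1 i) else 0) =
      (if l = j then h.φ t (v.1 i) else 0) + (if l = j then h.φ t (w.1 i) else 0)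
    by_cases hl : l = j
    · simp [hl]
    · simp [hl]
  map_smul' a v := by
    refine Beil.ext fun i l => ?_
    change (if l = j then h.φ t (∑ k, a.1 i k • v.1 k) else 0) =
      ∑ k, a.1 i k * (if l = j then h.φ t (v.1 k) else 0)
    by_cases hl : l = j
    · simp [hl, map_sum]
    · simp [hl]

theorem sum_coef (v : XM Φ) : ∑ t, h.coef t v • h.gen t = v := by
  refine XM.ext fun i => ?_
  rw [Submodule.coe_sum, Col.sum_apply]
  conv_rhs => rw [← h.sum_eq (v.1 i)]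
  refine Finset.sum_congr rfl fun t _ => ?_
  change ∑ l, (if l = j then h.φ t (v.1 i) else 0) • (if l = j then h.g t else 0) = _
  simp

/-- the surjection from a free module -/
def out : (h.κ → Beil 𝒢) →ₗ[Beil 𝒢] XM Φ :=
  Fintype.linearCombination (Beil 𝒢) h.gen

theorem out_comp : h.out ∘ₗ LinearMap.pi h.coef = LinearMap.id := by
  ext1 v
  simp [out, Fintype.linearCombination_apply, h.sum_coef]

include h in
theorem projective : Module.Projective (Beil 𝒢) (XM Φ) :=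
  Module.Projective.of_split _ _ h.out_comp

include h in
theorem finite : Module.Finite (Beil 𝒢) (XM Φ) :=
  Module.Finite.of_surjective h.out fun v =>
    ⟨LinearMap.pi h.coef v, LinearMap.congr_fun h.out_comp v⟩

include h in
/-- no homs to a module vanishing at the vertex `j` -/
theorem hom_eq_zero {Ψ : MFilt 𝒢 Y'} (hΨ : ∀ y ∈ Ψ.F j, y = 0) (f : XM Φ →ₗ[Beil 𝒢] XM Ψ) :
    f = 0 := by
  let e : Beil 𝒢 := ⟨Matrix.of fun i l => if i = j ∧ l = j then 1 else 0, fun i l => by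
    by_cases hl : i = j ∧ l = j
    · obtain ⟨rfl, rfl⟩ := hl
      simpa using 𝒢.one_mem
    · simp [hl]⟩
  have h1 : ∀ t, e • h.gen t = h.gen t := fun t => XM.ext fun i => by
    change ∑ l, (if i = j ∧ l = j then (1 : R) else 0) • (if l = j then h.g t else 0) =
      if i = j then h.g t else 0
    by_cases hi : i = j
    · simp [hi]
    · simp [hi]
  have h2 : ∀ w : XM Ψ, e • w = 0 := fun w => XM.ext fun i => by
    change ∑ l, (if i = j ∧ l = j then (1 : R) else 0) • w.1 l = 0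
    by_cases hi : i = j
    · simp [hi, hΨ _ (w.2 j)]
    · simp [hi]
  ext1 v
  rw [← h.sum_coef v, map_sum]
  refine Finset.sum_eq_zero fun t _ => ?_
  rw [map_smul, ← h1, map_smul, h2, smul_zero]

end FreeAt

/-- the regular filtered module `ι → R` -/
def MFilt.pi (𝒢 : Filt R) (ι : Type) : MFilt 𝒢 (ι → R) where
  F b := AddSubgroup.pi Set.univ fun _ => (𝒢.G b).toAddSubgroup
  smul_mem := fun hr hy t _ => 𝒢.mul_mem hr (hy t trivial)

theorem MFilt.mem_pi {ι : Type} {b : ℤ} {l : ι → R} :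
    l ∈ (MFilt.pi 𝒢 ι).F b ↔ ∀ t, l t ∈ 𝒢.G b :=
  ⟨fun h t => h t trivial, fun h t _ => h t⟩

/-- shifted regular modules are free -/
def freeAtPi (𝒢 : Filt R) (ι : Type) [Fintype ι] [DecidableEq ι] (j : Fin 5) :
    FreeAt ((MFilt.pi 𝒢 ι).shift j) j where
  κ := ι
  g t := Pi.single t 1
  φ t := LinearMap.proj t
  g_mem t := by
    change _ ∈ (MFilt.pi 𝒢 ι).F _
    rw [MFilt.mem_pi, sub_self]
    intro s
    by_cases hs : s = t
    · subst hs; simpa using 𝒢.one_mem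
    · simp [hs]
  φ_mem t b y hy := hy t trivial
  sum_eq y := by
    ext s
    simp [Finset.sum_apply, Pi.single_apply]

end Crest.Agent.FinDim
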