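import Mathlib

/-! The enveloping algebra of `sl₂` by generators and relations, with its PBW filtration. -/

set_option autoImplicit false

namespace Crest.Agent.FinDim

open MvPolynomial

/-- polynomial model (variables `0 = e`, `1 = f`, `2 = h`) -/
abbrev P : Type := MvPolynomial (Fin 3) ℂ

/-- monomials -/
noncomputable def mono (a b c : ℕ) : P := X 0 ^ a * X 1 ^ b * X 2 ^ c

/-- degree filtration -/
noncomputable def degF (n : ℤ) : Submodule ℂ P :=
  Submodule.span ℂ {p | ∃ a b c : ℕ, (a : ℤ) + b + c ≤ n ∧ p = mono a b c}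

theorem mono_mem {a b c : ℕ} {n : ℤ} (h : (a : ℤ) + b + c ≤ n) : mono a b c ∈ degF n :=
  Submodule.subset_span ⟨a, b, c, h, rfl⟩

theorem degF_ind {W : Type} [AddCommGroup W] [Module ℂ W] (T : P →ₗ[ℂ] W) (N : Submodule ℂ W)
    (n : ℤ) (h : ∀ a b c : ℕ, (a : ℤ) + b + c ≤ n → T (mono a b c) ∈ N) {p : P}
    (hp : p ∈ degF n) : T p ∈ N := by
  have : degF n ≤ N.comap T := Submodule.span_le.2 (by
    rintro _ ⟨a, b, c, habc, rfl⟩
    exact h a b c habc)
  exact this hp

theorem degF_mono : Monotone degF := fun _ _ h =>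
  Submodule.span_mono fun _ ⟨a, b, c, habc, hp⟩ => ⟨a, b, c, habc.trans h, hp⟩

theorem degF_neg (n : ℤ) (hn : n < 0) : degF n = ⊥ := by
  rw [degF, Submodule.span_eq_bot]
  rintro _ ⟨a, b, c, habc, rfl⟩
  omega

theorem monomial_eq_mono (α : Fin 3 →₀ ℕ) : (monomial α (1 : ℂ) : P) = mono (α 0) (α 1) (α 2) := by
  rw [monomial_eq, Finsupp.prod_fintype _ _ (by simp), Fin.prod_univ_three]
  simp [mono]

theorem P_ext {W : Type} [AddCommGroup W] [Module ℂ W] {S T : P →ₗ[ℂ] W}
    (h : ∀ a b c, S (mono a b c) = T (mono a b c)) : S = T := by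
  refine (basisMonomials (Fin 3) ℂ).ext fun α => ?_
  simp only [coe_basisMonomials, monomial_eq_mono, h]

theorem exists_degF (p : P) : ∃ n : ℕ, p ∈ degF n := by
  induction p using MvPolynomial.induction_on' with
  | monomial α c =>
    refine ⟨α 0 + α 1 + α 2, ?_⟩
    have : (monomial α c : P) = c • monomial α 1 := by simp [smul_monomial]
    rw [this, monomial_eq_mono]
    exact Submodule.smul_mem _ _ (mono_mem (by push_cast; omega))
  | add p q hp hq =>
    obtain ⟨n, hn⟩ := hp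
    obtain ⟨m, hm⟩ := hq
    exact ⟨max n m, Submodule.add_mem _ (degF_mono (by simp) hn) (degF_mono (by simp) hm)⟩

instance degF_fd (n : ℤ) : FiniteDimensional ℂ (degF n) := by
  refine FiniteDimensional.span_of_finite ℂ ?_
  refine ((Set.finite_Iic (n.toNat, n.toNat, n.toNat)).image
    fun x : ℕ × ℕ × ℕ => mono x.1 x.2.1 x.2.2).subset ?_
  rintro _ ⟨a, b, c, habc, rfl⟩
  exact ⟨(a, b, c), ⟨by simp; omega, by simp; omega, by simp; omega⟩, rfl⟩

theorem degF_zero {p : P} (hp : p ∈ degF 0) : ∃ c : ℂ, p = c • 1 := by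
  have := degF_ind LinearMap.id (Submodule.span ℂ {(1 : P)}) 0 (fun a b c h => by
    obtain rfl : a = 0 := by omega
    obtain rfl : b = 0 := by omega
    obtain rfl : c = 0 := by omega
    exact Submodule.subset_span (by simp [mono])) hp
  obtain ⟨c, hc⟩ := Submodule.mem_span_singleton.1 this
  exact ⟨c, hc.symm⟩

/-- partial derivatives as linear maps -/
noncomputable def D (i : Fin 3) : P →ₗ[ℂ] P := (pderiv i).toLinearMap

theorem D_mul (i : Fin 3) (p q : P) : D i (p * q) = D i p * q + p * D i q := pderiv_mul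

@[simp] theorem D_X_self (i : Fin 3) : D i (X i) = 1 := pderiv_X_self i

theorem D_X_ne {i j : Fin 3} (h : j ≠ i) : D i (X j) = 0 := pderiv_X_of_ne h

@[simp] theorem D_01 : D 0 (X 1) = 0 := D_X_ne (by decide)
@[simp] theorem D_02 : D 0 (X 2) = 0 := D_X_ne (by decide)
@[simp] theorem D_10 : D 1 (X 0) = 0 := D_X_ne (by decide)
@[simp] theorem D_12 : D 1 (X 2) = 0 := D_X_ne (by decide)
@[simp] theorem D_20 : D 2 (X 0) = 0 := D_X_ne (by decide)
@[simp] theorem D_21 : D 2 (X 1) = 0 := D_X_ne (by decide)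

theorem D_pow (i : Fin 3) (p : P) (n : ℕ) : D i (p ^ n) = (n : P) * p ^ (n - 1) * D i p :=
  pderiv_pow

theorem D0_mono (a b c : ℕ) : D 0 (mono a b c) = (a : ℂ) • mono (a - 1) b c := by
  simp [mono, D_mul, D_pow, Algebra.smul_def]; ring

theorem D1_mono (a b c : ℕ) : D 1 (mono a b c) = (b : ℂ) • mono a (b - 1) c := by
  simp [mono, D_mul, D_pow, Algebra.smul_def]; ring

theorem D2_mono (a b c : ℕ) : D 2 (mono a b c) = (c : ℂ) • mono a b (c - 1) := by
  simp [mono, D_mul, D_pow, Algebra.smul_def]; ring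

theorem X0_mono (a b c : ℕ) : X 0 * mono a b c = mono (a + 1) b c := by simp [mono]; ring
theorem X1_mono (a b c : ℕ) : X 1 * mono a b c = mono a (b + 1) c := by simp [mono]; ring
theorem X2_mono (a b c : ℕ) : X 2 * mono a b c = mono a b (c + 1) := by simp [mono]; ring

theorem X0_D0_mono (a b c : ℕ) : X 0 * D 0 (mono a b c) = (a : ℂ) • mono a b c := by
  rcases a with _ | a
  · simp [D0_mono]
  · simp [D0_mono, X0_mono]

theorem X1_D1_mono (a b c : ℕ) : X 1 * D 1 (mono a b c) = (b : ℂ) • mono a b c := by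
  rcases b with _ | b
  · simp [D1_mono]
  · simp [D1_mono, X1_mono]

theorem X2_D2_mono (a b c : ℕ) : X 2 * D 2 (mono a b c) = (c : ℂ) • mono a b c := by
  rcases c with _ | c
  · simp [D2_mono]
  · simp [D2_mono, X2_mono]

theorem D1_D0 (p : P) : D 1 (D 0 p) = D 0 (D 1 p) := by
  have : D 1 ∘ₗ D 0 = D 0 ∘ₗ D 1 := P_ext fun a b c => by
    simp [D0_mono, D1_mono, smul_smul, mul_comm]
  exact LinearMap.congr_fun this p

theorem D_mem (i : Fin 3) (n : ℤ) (p : P) (hp : p ∈ degF n) : D i p ∈ degF (n - 1) := by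
  refine degF_ind (D i) _ n (fun a b c h => ?_) hp
  fin_cases i
  · change D 0 _ ∈ _
    rcases a with _ | a
    · simp [D0_mono]
    · rw [D0_mono]; exact Submodule.smul_mem _ _ (mono_mem (by push_cast at h ⊢; omega))
  · change D 1 _ ∈ _
    rcases b with _ | b
    · simp [D1_mono]
    · rw [D1_mono]; exact Submodule.smul_mem _ _ (mono_mem (by push_cast at h ⊢; omega))
  · change D 2 _ ∈ _
    rcases c with _ | c
    · simp [D2_mono]
    · rw [D2_mono]; exact Submodule.smul_mem _ _ (mono_mem (by push_cast at h ⊢; omega))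

theorem X_mem (i : Fin 3) (n : ℤ) (p : P) (hp : p ∈ degF n) : X i * p ∈ degF (n + 1) := by
  refine degF_ind (LinearMap.mulLeft ℂ (X i)) _ n (fun a b c h => ?_) hp
  fin_cases i
  · change X 0 * _ ∈ _
    rw [X0_mono]; exact mono_mem (by push_cast; omega)
  · change X 1 * _ ∈ _
    rw [X1_mono]; exact mono_mem (by push_cast; omega)
  · change X 2 * _ ∈ _
    rw [X2_mono]; exact mono_mem (by push_cast; omega)

theorem XD_mem (i j : Fin 3) (n : ℤ) (p : P) (hp : p ∈ degF n) : X i * D j p ∈ degF n := by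
  simpa using X_mem i _ _ (D_mem j n p hp)

theorem euler_mem (n : ℤ) (p : P) (hp : p ∈ degF n) :
    X 0 * D 0 p + X 1 * D 1 p + X 2 * D 2 p - (n : ℂ) • p ∈ degF (n - 1) := by
  refine degF_ind (LinearMap.mulLeft ℂ (X 0) ∘ₗ D 0 + LinearMap.mulLeft ℂ (X 1) ∘ₗ D 1 +
    LinearMap.mulLeft ℂ (X 2) ∘ₗ D 2 - (n : ℂ) • LinearMap.id) _ n (fun a b c h => ?_) hp
  simp only [LinearMap.sub_apply, LinearMap.add_apply, LinearMap.comp_apply,
    LinearMap.mulLeft_apply, LinearMap.smul_apply, LinearMap.id_apply, X0_D0_mono, X1_D1_mono,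
    X2_D2_mono]
  rw [← add_smul, ← add_smul, ← sub_smul]
  rcases h.lt_or_eq with h | h
  · exact Submodule.smul_mem _ _ (mono_mem (by omega))
  · rw [← h]; simp

/-- lower order part of right multiplication by `e` -/
noncomputable def Re' : P →ₗ[ℂ] P :=
  - LinearMap.mulLeft ℂ (X 2) ∘ₗ D 1 + (2 : ℂ) • LinearMap.mulLeft ℂ (X 0) ∘ₗ D 0 ∘ₗ D 1 -
    LinearMap.mulLeft ℂ (X 1) ∘ₗ D 1 ∘ₗ D 1

/-- lower order part of right multiplication by `h` -/
noncomputable def Rh' : P →ₗ[ℂ] P :=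
  (2 : ℂ) • LinearMap.mulLeft ℂ (X 1) ∘ₗ D 1 - (2 : ℂ) • LinearMap.mulLeft ℂ (X 0) ∘ₗ D 0

/-- right multiplication by `e` -/
noncomputable def Re : Module.End ℂ P := LinearMap.mulLeft ℂ (X 0) + Re'
/-- right multiplication by `f` -/
noncomputable def Rf : Module.End ℂ P := LinearMap.mulLeft ℂ (X 1)
/-- right multiplication by `h` -/
noncomputable def Rh : Module.End ℂ P := LinearMap.mulLeft ℂ (X 2) + Rh'

theorem Re'_apply (p : P) :
    Re' p = - (X 2 * D 1 p) + (2 : ℂ) • (X 0 * D 0 (D 1 p)) - X 1 * D 1 (D 1 p) := rfl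
theorem Rh'_apply (p : P) : Rh' p = (2 : ℂ) • (X 1 * D 1 p) - (2 : ℂ) • (X 0 * D 0 p) := rfl
theorem Re_apply (p : P) : Re p = X 0 * p + Re' p := rfl
theorem Rf_apply (p : P) : Rf p = X 1 * p := rfl
theorem Rh_apply (p : P) : Rh p = X 2 * p + Rh' p := rfl

theorem Re'_mem (n : ℤ) (p : P) (hp : p ∈ degF n) : Re' p ∈ degF n := by
  rw [Re'_apply]
  have h1 := degF_mono (show n - 1 ≤ n by omega) (D_mem 1 n p hp)
  exact Submodule.sub_mem _ (Submodule.add_mem _ (Submodule.neg_mem _ (XD_mem _ _ _ _ hp))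
    (Submodule.smul_mem _ _ (XD_mem _ _ _ _ h1))) (XD_mem _ _ _ _ h1)

theorem Rh'_mem (n : ℤ) (p : P) (hp : p ∈ degF n) : Rh' p ∈ degF n := by
  rw [Rh'_apply]
  exact Submodule.sub_mem _ (Submodule.smul_mem _ _ (XD_mem _ _ _ _ hp))
    (Submodule.smul_mem _ _ (XD_mem _ _ _ _ hp))

theorem R_he (p : P) : Rh (Re p) = Re (Rh p) - (Re p + Re p) := by
  simp only [Re_apply, Rh_apply, Re'_apply, Rh'_apply, map_add, map_sub, map_neg, two_smul,
    D_mul, D_X_self, D_01, D_02, D_10, D_12, D1_D0, zero_mul, one_mul, zero_add]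
  ring

theorem R_hf (p : P) : Rh (Rf p) = Rf (Rh p) + (Rf p + Rf p) := by
  simp only [Rf_apply, Rh_apply, Rh'_apply, two_smul,
    D_mul, D_X_self, D_01, zero_mul, one_mul, zero_add]
  ring

theorem R_ef (p : P) : Re (Rf p) = Rf (Re p) - Rh p := by
  simp only [Re_apply, Rf_apply, Rh_apply, Re'_apply, Rh'_apply, map_add, two_smul,
    D_mul, D_X_self, D_01, zero_mul, one_mul, zero_add]
  ring

theorem Rf_mono (a b c : ℕ) : Rf (mono a b c) = mono a (b + 1) c := X1_mono a b c

theorem Rh_mono (a b c : ℕ) :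
    Rh (mono a b c) = mono a b (c + 1) + (2 * (b : ℂ) - 2 * a) • mono a b c := by
  rw [Rh_apply, Rh'_apply, X2_mono, X1_D1_mono, X0_D0_mono]
  module

theorem Re_mono_zero (a c : ℕ) : Re (mono a 0 c) = mono (a + 1) 0 c := by
  simp [Re_apply, Re'_apply, X0_mono, D1_mono]

theorem Re_mono_succ (a b c : ℕ) : Re (mono a (b + 1) c) = mono (a + 1) (b + 1) c -
    ((b : ℂ) + 1) • mono a b (c + 1) + (((b : ℂ) + 1) * (2 * a - b)) • mono a b c := by
  rw [Re_apply, Re'_apply, X0_mono, D1_mono]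
  simp only [Nat.add_sub_cancel, map_smul, mul_smul_comm, X2_mono, X0_D0_mono, X1_D1_mono]
  push_cast
  module

/-- the `sl₂` relations -/
def Rel (x y : FreeAlgebra ℂ (Fin 3)) : Prop :=
  (x = FreeAlgebra.ι ℂ 2 * FreeAlgebra.ι ℂ 0 ∧
    y = FreeAlgebra.ι ℂ 0 * FreeAlgebra.ι ℂ 2 + (FreeAlgebra.ι ℂ 0 + FreeAlgebra.ι ℂ 0)) ∨
  (x = FreeAlgebra.ι ℂ 2 * FreeAlgebra.ι ℂ 1 ∧
    y = FreeAlgebra.ι ℂ 1 * FreeAlgebra.ι ℂ 2 - (FreeAlgebra.ι ℂ 1 + FreeAlgebra.ι ℂ 1)) ∨
  (x = FreeAlgebra.ι ℂ 0 * FreeAlgebra.ι ℂ 1 ∧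
    y = FreeAlgebra.ι ℂ 1 * FreeAlgebra.ι ℂ 0 + FreeAlgebra.ι ℂ 2)

/-- `U(sl₂)` -/
def U : Type := RingQuot Rel

noncomputable instance : Ring U := inferInstanceAs (Ring (RingQuot Rel))
noncomputable instance : Algebra ℂ U := inferInstanceAs (Algebra ℂ (RingQuot Rel))

namespace U

/-- quotient map -/
noncomputable def mk : FreeAlgebra ℂ (Fin 3) →ₐ[ℂ] U := RingQuot.mkAlgHom ℂ Rel

/-- generator `e` -/
noncomputable def e : U := mk (FreeAlgebra.ι ℂ 0)
/-- generator `f` -/
noncomputable def f : U := mk (FreeAlgebra.ι ℂ 1)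
/-- generator `h` -/
noncomputable def h : U := mk (FreeAlgebra.ι ℂ 2)

theorem he : h * e = e * h + (e + e) := by
  have : mk _ = mk _ := RingQuot.mkAlgHom_rel ℂ (s := Rel) (Or.inl ⟨rfl, rfl⟩)
  simpa only [map_mul, map_add, e, f, h] using this

theorem hf : h * f = f * h - (f + f) := by
  have : mk _ = mk _ := RingQuot.mkAlgHom_rel ℂ (s := Rel) (Or.inr (Or.inl ⟨rfl, rfl⟩))
  simpa only [map_mul, map_add, map_sub, e, f, h] using this

theorem ef : e * f = f * e + h := by
  have : mk _ = mk _ := RingQuot.mkAlgHom_rel ℂ (s := Rel) (Or.inr (Or.inr ⟨rfl, rfl⟩))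
  simpa only [map_mul, map_add, e, f, h] using this

section lift

variable {S : Type} [Ring S] [Algebra ℂ S] (x y z : S) (h1 : z * x = x * z + (x + x))
  (h2 : z * y = y * z - (y + y)) (h3 : x * y = y * x + z)

/-- universal property -/
noncomputable def lift : U →ₐ[ℂ] S :=
  RingQuot.liftAlgHom ℂ (s := Rel) ⟨FreeAlgebra.lift ℂ ![x, y, z], by
    rintro _ _ (⟨rfl, rfl⟩ | ⟨rfl, rfl⟩ | ⟨rfl, rfl⟩)
    · simpa using h1
    · simpa using h2
    · simpa using h3⟩

theorem lift_mk (w : FreeAlgebra ℂ (Fin 3)) :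
    lift x y z h1 h2 h3 (mk w) = FreeAlgebra.lift ℂ ![x, y, z] w :=
  RingQuot.liftAlgHom_mkAlgHom_apply ℂ _ _ _

@[simp] theorem lift_e : lift x y z h1 h2 h3 e = x := by simp [e, lift_mk]
@[simp] theorem lift_f : lift x y z h1 h2 h3 f = y := by simp [f, lift_mk]
@[simp] theorem lift_h : lift x y z h1 h2 h3 h = z := by simp [h, lift_mk]

end lift

theorem induction_on {Q : U → Prop} (u : U) (h0 : ∀ c : ℂ, Q (algebraMap ℂ U c)) (h1 : Q e)
    (h2 : Q f) (h3 : Q h) (hadd : ∀ x y, Q x → Q y → Q (x + y))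
    (hmul : ∀ x y, Q x → Q y → Q (x * y)) : Q u := by
  obtain ⟨w, rfl⟩ : ∃ w, mk w = u := RingQuot.mkAlgHom_surjective ℂ Rel u
  induction w using FreeAlgebra.induction with
  | grade0 c => rw [AlgHom.commutes]; exact h0 c
  | grade1 i =>
    fin_cases i
    · exact h1
    · exact h2
    · exact h3
  | mul a b ha hb => rw [map_mul]; exact hmul _ _ ha hb
  | add a b ha hb => rw [map_add]; exact hadd _ _ ha hb

/-- the right regular representation on the polynomial model -/
noncomputable def rhoP : U →ₐ[ℂ] (Module.End ℂ P)ᵐᵒᵖ :=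
  lift (MulOpposite.op Re) (MulOpposite.op Rf) (MulOpposite.op Rh)
    (by
      apply MulOpposite.unop_injective
      refine LinearMap.ext fun p => ?_
      simp [R_he])
    (by
      apply MulOpposite.unop_injective
      refine LinearMap.ext fun p => ?_
      simp [R_hf])
    (by
      apply MulOpposite.unop_injective
      refine LinearMap.ext fun p => ?_
      simp [R_ef])

/-- PBW coordinates -/
noncomputable def phi : U →ₗ[ℂ] P where
  toFun u := (rhoP u).unop 1
  map_add' u v := by simp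
  map_smul' c u := by simp

theorem phi_mul (u v : U) : phi (u * v) = (rhoP v).unop (phi u) := by
  change (rhoP (u * v)).unop 1 = (rhoP v).unop ((rhoP u).unop 1)
  simp

theorem phi_mul_e (u : U) : phi (u * e) = Re (phi u) := by simp [phi_mul, rhoP]
theorem phi_mul_f (u : U) : phi (u * f) = Rf (phi u) := by simp [phi_mul, rhoP]
theorem phi_mul_h (u : U) : phi (u * h) = Rh (phi u) := by simp [phi_mul, rhoP]
theorem phi_one : phi 1 = 1 := by
  change (rhoP 1).unop 1 = 1
  simp

/-- ordered monomials -/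
noncomputable def om (a b c : ℕ) : U := h ^ c * e ^ a * f ^ b

/-- inverse of the PBW coordinates -/
noncomputable def psi : P →ₗ[ℂ] U :=
  (basisMonomials (Fin 3) ℂ).constr ℂ fun α => om (α 0) (α 1) (α 2)

theorem psi_mono (a b c : ℕ) : psi (mono a b c) = om a b c := by
  have := (basisMonomials (Fin 3) ℂ).constr_basis ℂ (fun α => om (α 0) (α 1) (α 2))
    (Finsupp.equivFunOnFinite.symm ![a, b, c])
  simpa [monomial_eq_mono, psi] using this

theorem phi_om (a b c : ℕ) : phi (om a b c) = mono a b c := by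
  induction b with
  | zero =>
    induction a with
    | zero =>
      induction c with
      | zero => simp [om, mono, phi_one]
      | succ c ih =>
        have : om 0 0 (c + 1) = om 0 0 c * h := by simp [om, pow_succ]
        rw [this, phi_mul_h, ih, Rh_mono]; simp
    | succ a ih =>
      have : om (a + 1) 0 c = om a 0 c * e := by simp [om, pow_succ, mul_assoc]
      rw [this, phi_mul_e, ih, Re_mono_zero]
  | succ b ih =>
    have : om a (b + 1) c = om a b c * f := by simp [om, pow_succ, mul_assoc]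
    rw [this, phi_mul_f, ih, Rf_mono]

theorem phi_psi (p : P) : phi (psi p) = p := by
  have : phi ∘ₗ psi = LinearMap.id := P_ext fun a b c => by simp [psi_mono, phi_om]
  exact LinearMap.congr_fun this p

theorem e_pow_mul_h (a : ℕ) : e ^ a * h = h * e ^ a - (2 * (a : ℂ)) • e ^ a := by
  induction a with
  | zero => simp
  | succ a ih =>
    have h1 : e * h = h * e - (e + e) := by rw [he]; abel
    rw [pow_succ, mul_assoc, h1, mul_sub, ← mul_assoc, ih, sub_mul, mul_add, smul_mul_assoc,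
      mul_assoc]
    push_cast
    module

theorem f_pow_mul_h (b : ℕ) : f ^ b * h = h * f ^ b + (2 * (b : ℂ)) • f ^ b := by
  induction b with
  | zero => simp
  | succ b ih =>
    have h1 : f * h = h * f + (f + f) := by rw [hf]; abel
    rw [pow_succ, mul_assoc, h1, mul_add, ← mul_assoc, ih, add_mul, mul_add, smul_mul_assoc,
      mul_assoc]
    push_cast
    module

theorem f_pow_mul_e (b : ℕ) : f ^ (b + 1) * e =
    e * f ^ (b + 1) - ((b : ℂ) + 1) • (h * f ^ b) - (((b : ℂ) + 1) * b) • f ^ b := by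
  have h1 : f * e = e * f - h := by rw [ef]; abel
  induction b with
  | zero => simp [h1]
  | succ b ih =>
    rw [pow_succ f (b + 1), mul_assoc, h1, mul_sub, ← mul_assoc, ih, f_pow_mul_h]
    simp only [sub_mul, smul_mul_assoc, mul_assoc, ← pow_succ]
    push_cast
    module

theorem om_mul_h (a b c : ℕ) :
    om a b c * h = om a b (c + 1) + (2 * (b : ℂ) - 2 * a) • om a b c := by
  simp only [om, mul_assoc, f_pow_mul_h, mul_add, mul_smul_comm]
  rw [← mul_assoc (e ^ a), e_pow_mul_h]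
  simp only [sub_mul, mul_sub, smul_mul_assoc, mul_smul_comm, pow_succ, mul_assoc]
  module

theorem om_mul_e_succ (a b c : ℕ) : om a (b + 1) c * e = om (a + 1) (b + 1) c -
    ((b : ℂ) + 1) • om a b (c + 1) + (((b : ℂ) + 1) * (2 * a - b)) • om a b c := by
  simp only [om, mul_assoc, f_pow_mul_e, mul_sub, mul_smul_comm]
  rw [← mul_assoc (e ^ a) h, e_pow_mul_h]
  simp only [sub_mul, mul_sub, smul_mul_assoc, mul_smul_comm, pow_succ, mul_assoc]
  module

theorem psi_Rf (p : P) : psi (Rf p) = psi p * f := by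
  have : psi ∘ₗ Rf = LinearMap.mulRight ℂ f ∘ₗ psi := P_ext fun a b c => by
    simp [Rf_mono, psi_mono, om, pow_succ, mul_assoc]
  exact LinearMap.congr_fun this p

theorem psi_Rh (p : P) : psi (Rh p) = psi p * h := by
  have : psi ∘ₗ Rh = LinearMap.mulRight ℂ h ∘ₗ psi := P_ext fun a b c => by
    simp [Rh_mono, psi_mono, om_mul_h]
  exact LinearMap.congr_fun this p

theorem psi_Re (p : P) : psi (Re p) = psi p * e := by
  have : psi ∘ₗ Re = LinearMap.mulRight ℂ e ∘ₗ psi := P_ext fun a b c => by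
    rcases b with _ | b
    · simp [Re_mono_zero, psi_mono, om, pow_succ, mul_assoc]
    · simp [Re_mono_succ, psi_mono, om_mul_e_succ]
  exact LinearMap.congr_fun this p

theorem psi_rhoP (u : U) : ∀ p, psi ((rhoP u).unop p) = psi p * u := by
  induction u using induction_on with
  | h0 c => intro p; simp [Algebra.algebraMap_eq_smul_one]
  | h1 => intro p; simp [rhoP, psi_Re]
  | h2 => intro p; simp [rhoP, psi_Rf]
  | h3 => intro p; simp [rhoP, psi_Rh]
  | hadd x y hx hy => intro p; simp [hx, hy, mul_add]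
  | hmul x y hx hy => intro p; simp [hx, hy, mul_assoc]

theorem psi_phi (u : U) : psi (phi u) = u := by
  change psi ((rhoP u).unop 1) = u
  rw [psi_rhoP]
  have : psi 1 = 1 := by simpa [mono, om] using psi_mono 0 0 0
  rw [this, one_mul]

theorem phi_injective : Function.Injective phi := Function.LeftInverse.injective psi_phi

/-- the PBW filtration -/
noncomputable def F (n : ℤ) : Submodule ℂ U := (degF n).comap phi

theorem mem_F {n : ℤ} {u : U} : u ∈ F n ↔ phi u ∈ degF n := Iff.rfl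

theorem psi_mem {n : ℤ} {p : P} (hp : p ∈ degF n) : psi p ∈ F n := by
  rwa [mem_F, phi_psi]

theorem F_mono : Monotone F := fun _ _ h _ hu => degF_mono h hu

theorem F_neg {n : ℤ} (hn : n < 0) {u : U} (hu : u ∈ F n) : u = 0 := by
  rw [mem_F, degF_neg n hn, Submodule.mem_bot] at hu
  exact phi_injective (by rw [hu, map_zero])

theorem F_zero {u : U} (hu : u ∈ F 0) : ∃ c : ℂ, u = c • 1 := by
  obtain ⟨c, hc⟩ := degF_zero hu
  exact ⟨c, phi_injective (by rw [hc, map_smul, phi_one])⟩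

theorem exists_F (u : U) : ∃ n : ℕ, u ∈ F n := exists_degF _

instance F_fd (n : ℤ) : FiniteDimensional ℂ (F n) :=
  FiniteDimensional.of_injective (phi.restrict (p := F n) (q := degF n) fun _ hu => hu)
    fun _ _ h => Subtype.ext (phi_injective (congrArg Subtype.val h))

theorem F_ind {W : Type} [AddCommGroup W] [Module ℂ W] (T : U →ₗ[ℂ] W) (N : Submodule ℂ W)
    (n : ℤ) (h : ∀ a b c : ℕ, (a : ℤ) + b + c ≤ n → T (om a b c) ∈ N) {u : U}
    (hu : u ∈ F n) : T u ∈ N := by
  rw [← psi_phi u]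
  exact degF_ind (T ∘ₗ psi) N n (fun a b c habc => by simpa [psi_mono] using h a b c habc) hu

theorem one_mem_F : (1 : U) ∈ F 0 := by
  rw [mem_F, phi_one]
  simpa [mono] using mono_mem (a := 0) (b := 0) (c := 0) (n := 0) (by simp)

theorem mul_e_mem {n : ℤ} {u : U} (hu : u ∈ F n) : u * e ∈ F (n + 1) := by
  rw [mem_F, phi_mul_e, Re_apply]
  exact Submodule.add_mem _ (X_mem _ _ _ hu) (degF_mono (by omega) (Re'_mem _ _ hu))

theorem mul_f_mem {n : ℤ} {u : U} (hu : u ∈ F n) : u * f ∈ F (n + 1) := by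
  rw [mem_F, phi_mul_f, Rf_apply]
  exact X_mem _ _ _ hu

theorem mul_h_mem {n : ℤ} {u : U} (hu : u ∈ F n) : u * h ∈ F (n + 1) := by
  rw [mem_F, phi_mul_h, Rh_apply]
  exact Submodule.add_mem _ (X_mem _ _ _ hu) (degF_mono (by omega) (Rh'_mem _ _ hu))

theorem mul_pow_mem {x : U} (hx : ∀ {n : ℤ} {u : U}, u ∈ F n → u * x ∈ F (n + 1)) (k : ℕ)
    {n : ℤ} {u : U} (hu : u ∈ F n) : u * x ^ k ∈ F (n + k) := by
  induction k with
  | zero => simpa using hu
  | succ k ih =>
    rw [pow_succ, ← mul_assoc]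
    have := hx ih
    push_cast
    rwa [← add_assoc]

theorem mul_mem_F {m n : ℤ} {u v : U} (hu : u ∈ F m) (hv : v ∈ F n) : u * v ∈ F (m + n) := by
  refine F_ind (LinearMap.mulLeft ℂ u) _ n (fun a b c habc => ?_) hv
  have := mul_pow_mem mul_f_mem b (mul_pow_mem mul_e_mem a (mul_pow_mem mul_h_mem c hu))
  simp only [LinearMap.mulLeft_apply, om, ← mul_assoc]
  exact F_mono (by omega) this

theorem e_mem : e ∈ F 1 := by simpa using mul_e_mem one_mem_F
theorem f_mem : f ∈ F 1 := by simpa using mul_f_mem one_mem_F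
theorem h_mem : h ∈ F 1 := by simpa using mul_h_mem one_mem_F

end U

end Crest.Agent.FinDim
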