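import Mathlib
import Crest.Agent.FinDim.PBW
import Crest.Agent.FinDim.Beil

/-! The filtered algebra `U(sl₂)[z] ⋉ N`, `N` the translation bimodule. -/

set_option autoImplicit false

namespace Crest.Agent.FinDim

open Polynomial U

/-- `2 × 2` matrices over `U` -/
abbrev Mat : Type := Matrix (Fin 2) (Fin 2) U

theorem he' (x : U) : h * (e * x) = e * (h * x) + (e * x + e * x) := by
  rw [← mul_assoc, he]; noncomm_ring

theorem hf' (x : U) : h * (f * x) = f * (h * x) - (f * x + f * x) := by
  rw [← mul_assoc, hf]; noncomm_ring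

theorem ef' (x : U) : e * (f * x) = f * (e * x) + h * x := by
  rw [← mul_assoc, ef]; noncomm_ring

/-- tactic normalising words in `e, f, h` -/
macro "sl2_norm" : tactic =>
  `(tactic| ((try simp only [mul_add, add_mul, mul_sub, sub_mul, mul_neg, neg_mul, mul_one, one_mul,
      mul_zero, zero_mul, mul_assoc, he, hf, ef, he', hf', ef']); try abel))

/-- the action on `V ⊗ -` -/
noncomputable def Del : U →ₐ[ℂ] Mat :=
  lift !![e, 1; 0, e] !![f, 0; 1, f] !![h + 1, 0; 0, h - 1]
    (by
      ext i j
      fin_cases i <;> fin_cases j <;> simp [Matrix.mul_apply, Fin.sum_univ_two] <;> sl2_norm)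
    (by
      ext i j
      fin_cases i <;> fin_cases j <;> simp [Matrix.mul_apply, Fin.sum_univ_two] <;> sl2_norm)
    (by
      ext i j
      fin_cases i <;> fin_cases j <;> simp [Matrix.mul_apply, Fin.sum_univ_two] <;> sl2_norm)

theorem Del_e : Del e = !![e, 1; 0, e] := by simp [Del]
theorem Del_f : Del f = !![f, 0; 1, f] := by simp [Del]
theorem Del_h : Del h = !![h + 1, 0; 0, h - 1] := by simp [Del]

/-- the split Casimir -/
noncomputable def Z : Mat := !![-(1 + 1) - h, -(f + f); -(e + e), h - (1 + 1)]

/-- the Casimir -/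
noncomputable def cas : U := h * h + (h + h) + (f * e + f * e + f * e + f * e)

theorem Del_comm_Z (u : U) : Commute (Del u) Z := by
  induction u using induction_on with
  | h0 c => rw [AlgHom.commutes]; exact Algebra.commute_algebraMap_left _ _
  | h1 =>
    rw [Del_e, Z, Commute, SemiconjBy]
    ext i j
    fin_cases i <;> fin_cases j <;> simp [Matrix.mul_apply, Fin.sum_univ_two] <;> sl2_norm
  | h2 =>
    rw [Del_f, Z, Commute, SemiconjBy]
    ext i j
    fin_cases i <;> fin_cases j <;> simp [Matrix.mul_apply, Fin.sum_univ_two] <;> sl2_norm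
  | h3 =>
    rw [Del_h, Z, Commute, SemiconjBy]
    ext i j
    fin_cases i <;> fin_cases j <;> simp [Matrix.mul_apply, Fin.sum_univ_two] <;> sl2_norm
  | hadd x y hx hy => rw [map_add]; exact hx.add_left hy
  | hmul x y hx hy => rw [map_mul]; exact hx.mul_left hy

theorem Z_sq : Z * Z + (Z + Z) = !![cas, 0; 0, cas] := by
  rw [Z, cas]
  ext i j
  fin_cases i <;> fin_cases j <;> simp [Matrix.mul_apply, Fin.sum_univ_two] <;> sl2_norm

theorem Del_cas : Del cas = !![cas, 0; 0, cas] - 1 - (Z + Z) := by
  rw [cas, Z]
  simp only [map_add, map_mul, Del_e, Del_f, Del_h]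
  ext i j
  fin_cases i <;> fin_cases j <;> simp [Matrix.mul_apply, Fin.sum_univ_two] <;> sl2_norm

/-- left action of `U[z]` on `N` -/
noncomputable def lam : U[X] →ₐ[ℂ] Mat :=
  eval₂AlgHom Del (Z - 1) fun u => (Del_comm_Z u).sub_right (Commute.one_right _)

theorem lam_C (u : U) : lam (C u) = Del u := by simp [lam]
theorem lam_X : lam X = Z - 1 := by simp [lam]

theorem lam_comm_Z (p : U[X]) : Commute (lam p) Z := by
  induction p using Polynomial.induction_on with
  | C a => rw [lam_C]; exact Del_comm_Z a
  | add p q hp hq => rw [map_add]; exact hp.add_left hq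
  | monomial n a ih =>
    rw [pow_succ, ← mul_assoc, map_mul, lam_X]
    exact ih.mul_left ((Commute.refl Z).sub_left (Commute.one_left _))

/-- action of matrices on pairs -/
noncomputable def matAct {M : Type} [AddCommGroup M] [Module ℂ M] (ρ : U →ₐ[ℂ] Module.End ℂ M) :
    Mat →ₐ[ℂ] Module.End ℂ (Fin 2 → M) where
  toFun a :=
    { toFun := fun w i => ∑ j, ρ (a i j) (w j)
      map_add' := fun w w' => by ext i; simp [Finset.sum_add_distrib]
      map_smul' := fun c w => by ext i; simp [Finset.smul_sum] }
  map_one' := by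
    refine LinearMap.ext fun w => funext fun i => ?_
    fin_cases i <;> simp [Fin.sum_univ_two]
  map_mul' a b := by
    refine LinearMap.ext fun w => funext fun i => ?_
    simp [Fin.sum_univ_two, Matrix.mul_apply]
    abel
  map_zero' := by
    refine LinearMap.ext fun w => funext fun i => ?_
    simp
  map_add' a b := by
    refine LinearMap.ext fun w => funext fun i => ?_
    simp [Finset.sum_add_distrib]
  commutes' c := by
    refine LinearMap.ext fun w => funext fun i => ?_
    fin_cases i <;> simp [Fin.sum_univ_two, Matrix.algebraMap_matrix_apply]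

theorem matAct_apply {M : Type} [AddCommGroup M] [Module ℂ M] (ρ : U →ₐ[ℂ] Module.End ℂ M)
    (a : Mat) (w : Fin 2 → M) (i : Fin 2) : matAct ρ a w i = ∑ j, ρ (a i j) (w j) := rfl

/-- left multiplication of matrices on `U²` -/
noncomputable def mv : Mat →ₐ[ℂ] Module.End ℂ (Fin 2 → U) := matAct (Algebra.lmul ℂ U)

theorem mv_apply (a : Mat) (w : Fin 2 → U) (i : Fin 2) : mv a w i = ∑ j, a i j * w j := rfl

/-- right multiplication on `U²` -/
noncomputable def rm : U →ₐ[ℂ] (Module.End ℂ (Fin 2 → U))ᵐᵒᵖ where
  toFun u := MulOpposite.op ((LinearMap.mulRight ℂ u).compLeft (Fin 2))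
  map_one' := by
    apply MulOpposite.unop_injective
    refine LinearMap.ext fun w => funext fun i => ?_
    simp
  map_mul' a b := by
    apply MulOpposite.unop_injective
    refine LinearMap.ext fun w => funext fun i => ?_
    simp [mul_assoc]
  map_zero' := by
    apply MulOpposite.unop_injective
    refine LinearMap.ext fun w => funext fun i => ?_
    simp
  map_add' a b := by
    apply MulOpposite.unop_injective
    refine LinearMap.ext fun w => funext fun i => ?_
    simp [mul_add]
  commutes' c := by
    apply MulOpposite.unop_injective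
    refine LinearMap.ext fun w => funext fun i => ?_
    simp [Algebra.algebraMap_eq_smul_one]

theorem rm_apply (u : U) (w : Fin 2 → U) (i : Fin 2) : (rm u).unop w i = w i * u := rfl

theorem rm_mv (u : U) (a : Mat) (w : Fin 2 → U) : (rm u).unop (mv a w) = mv a ((rm u).unop w) := by
  ext i
  simp [rm_apply, mv_apply, add_mul, mul_assoc]

/-- right action of `U[z]` on `N` -/
noncomputable def rr : U[X] →ₐ[ℂ] (Module.End ℂ (Fin 2 → U))ᵐᵒᵖ :=
  eval₂AlgHom rm (MulOpposite.op (mv Z)) fun u => by
    apply MulOpposite.unop_injective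
    refine LinearMap.ext fun w => ?_
    simp [rm_mv]

theorem rr_C (u : U) : rr (C u) = rm u := by simp [rr]
theorem rr_X : rr X = MulOpposite.op (mv Z) := by simp [rr]

theorem rr_mv (p : U[X]) (a : Mat) (ha : Commute a Z) (w : Fin 2 → U) :
    (rr p).unop (mv a w) = mv a ((rr p).unop w) := by
  induction p using Polynomial.induction_on generalizing w with
  | C u => rw [rr_C, rm_mv]
  | add p q hp hq => simp [hp, hq]
  | monomial n u ih =>
    rw [pow_succ, ← mul_assoc, map_mul, rr_X]
    simp only [MulOpposite.unop_mul, MulOpposite.unop_op, Module.End.mul_apply, ih]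
    rw [← Module.End.mul_apply, ← map_mul, ← ha.eq, map_mul, Module.End.mul_apply]

/-- the translation bimodule -/
def NB : Type := Fin 2 → U

noncomputable instance : AddCommGroup NB := inferInstanceAs (AddCommGroup (Fin 2 → U))
noncomputable instance : Module ℂ NB := inferInstanceAs (Module ℂ (Fin 2 → U))

noncomputable instance : Module U[X] NB :=
  Module.compHom (Fin 2 → U) (mv.comp lam).toRingHom

noncomputable instance : Module (U[X])ᵐᵒᵖ NB where
  smul x ν := (rr x.unop).unop ν
  one_smul ν := by
    change (rr 1).unop ν = ν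
    simp
  mul_smul x y ν := by
    change (rr (y.unop * x.unop)).unop ν = (rr x.unop).unop ((rr y.unop).unop ν)
    simp
  smul_zero x := map_zero (rr x.unop).unop
  smul_add x := map_add (rr x.unop).unop
  add_smul x y ν := by
    change (rr (x.unop + y.unop)).unop ν = (rr x.unop).unop ν + (rr y.unop).unop ν
    simp
  zero_smul ν := by
    change (rr 0).unop ν = 0
    simp

theorem NB.smul_def (p : U[X]) (ν : NB) : p • ν = mv (lam p) ν := rfl
theorem NB.op_smul_def (p : U[X]) (ν : NB) : MulOpposite.op p • ν = (rr p).unop ν := rfl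

instance : SMulCommClass U[X] (U[X])ᵐᵒᵖ NB where
  smul_comm p x ν := (rr_mv x.unop (lam p) (lam_comm_Z p) ν).symm

instance : IsScalarTower ℂ U[X] NB where
  smul_assoc c p ν := by
    change mv (lam (c • p)) ν = c • mv (lam p) ν
    simp

instance : IsScalarTower ℂ (U[X])ᵐᵒᵖ NB where
  smul_assoc c x ν := by
    change (rr (c • x.unop)).unop ν = c • (rr x.unop).unop ν
    simp

/-- the algebra `U[z] ⋉ N` -/
abbrev RH : Type := TrivSqZeroExt U[X] NB

noncomputable instance : Algebra ℂ RH := TrivSqZeroExt.algebra' ℂ U[X] NB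

end Crest.Agent.FinDim
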