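import Mathlib
import Crest.Agent.FinDim.RHat

/-! The filtration on `U(sl₂)[z] ⋉ N`. -/

set_option autoImplicit false

namespace Crest.Agent.FinDim

open Polynomial U

/-- filtration on `U[z]` -/
noncomputable def FZ (a : ℤ) : Submodule ℂ U[X] where
  carrier := {p | ∀ d : ℕ, p.coeff d ∈ F (a - d)}
  add_mem' := fun hp hq d => by rw [coeff_add]; exact Submodule.add_mem _ (hp d) (hq d)
  zero_mem' := fun d => by simp
  smul_mem' := fun c p hp d => by rw [coeff_smul]; exact Submodule.smul_mem _ _ (hp d)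

theorem mem_FZ {a : ℤ} {p : U[X]} : p ∈ FZ a ↔ ∀ d : ℕ, p.coeff d ∈ F (a - d) := Iff.rfl

theorem FZ_mono : Monotone FZ := fun _ _ h _ hp d => F_mono (by omega) (hp d)

theorem FZ_mul {a b : ℤ} {p q : U[X]} (hp : p ∈ FZ a) (hq : q ∈ FZ b) : p * q ∈ FZ (a + b) := by
  intro d
  rw [coeff_mul]
  refine Submodule.sum_mem _ fun x hx => ?_
  have hx' : x.1 + x.2 = d := by simpa using hx
  have := mul_mem_F (hp x.1) (hq x.2)
  rwa [show a - x.1 + (b - x.2) = a + b - d by rw [← hx']; push_cast; ring] at this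

theorem monomial_mem_FZ {a : ℤ} {d : ℕ} {u : U} (hu : u ∈ F (a - d)) : monomial d u ∈ FZ a := by
  intro d'
  rw [coeff_monomial]
  split_ifs with h
  · rwa [← h]
  · exact Submodule.zero_mem _

theorem C_mem_FZ {a : ℤ} {u : U} (hu : u ∈ F a) : C u ∈ FZ a :=
  monomial_mem_FZ (d := 0) (by simpa using hu)

theorem X_mem_FZ : (X : U[X]) ∈ FZ 1 :=
  monomial_mem_FZ (d := 1) (by simpa using one_mem_F)

theorem one_mem_FZ : (1 : U[X]) ∈ FZ 0 := C_mem_FZ one_mem_F

theorem FZ_ind {W : Type} [AddCommGroup W] [Module ℂ W] (T : U[X] →ₗ[ℂ] W) (N : Submodule ℂ W)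
    (a : ℤ) (h : ∀ (d : ℕ) (u : U), u ∈ F (a - d) → T (monomial d u) ∈ N) {p : U[X]}
    (hp : p ∈ FZ a) : T p ∈ N := by
  rw [p.as_sum_support, map_sum]
  exact Submodule.sum_mem _ fun d _ => h d _ (hp d)

/-- filtration on matrices -/
noncomputable def FM (a : ℤ) : Submodule ℂ Mat where
  carrier := {m | ∀ i j, m i j ∈ F a}
  add_mem' := fun hp hq i j => Submodule.add_mem _ (hp i j) (hq i j)
  zero_mem' := fun _ _ => Submodule.zero_mem _
  smul_mem' := fun _ _ hp i j => Submodule.smul_mem _ _ (hp i j)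

theorem FM_mono : Monotone FM := fun _ _ h _ hp i j => F_mono h (hp i j)

theorem FM_mul {a b : ℤ} {p q : Mat} (hp : p ∈ FM a) (hq : q ∈ FM b) : p * q ∈ FM (a + b) :=
  fun i j => by
    rw [Matrix.mul_apply]
    exact Submodule.sum_mem _ fun l _ => mul_mem_F (hp i l) (hq l j)

theorem one_mem_FM : (1 : Mat) ∈ FM 0 := fun i j => by
  rw [Matrix.one_apply]
  split_ifs
  · exact one_mem_F
  · exact Submodule.zero_mem _

theorem FM_pow {p : Mat} (hp : p ∈ FM 1) (k : ℕ) : p ^ k ∈ FM k := by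
  induction k with
  | zero => simpa using one_mem_FM
  | succ k ih => rw [pow_succ]; exact_mod_cast FM_mul ih hp

theorem one_mem_F1 : (1 : U) ∈ F 1 := F_mono (by norm_num) one_mem_F

theorem Del_mem {a : ℤ} {u : U} (hu : u ∈ F a) : Del u ∈ FM a := by
  have h1 : Del e ∈ FM 1 := fun i j => by
    fin_cases i <;> fin_cases j <;> simp [Del_e, e_mem, one_mem_F1]
  have h2 : Del f ∈ FM 1 := fun i j => by
    fin_cases i <;> fin_cases j <;> simp [Del_f, f_mem, one_mem_F1]
  have h3 : Del h ∈ FM 1 := fun i j => by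
    fin_cases i <;> fin_cases j <;>
      simp [Del_h, Submodule.add_mem _ h_mem one_mem_F1, Submodule.sub_mem _ h_mem one_mem_F1]
  refine F_ind Del.toLinearMap _ a (fun x y z hxyz => ?_) hu
  simp only [AlgHom.toLinearMap_apply, om, map_mul, map_pow]
  exact FM_mono (by omega) (FM_mul (FM_mul (FM_pow h3 z) (FM_pow h1 x)) (FM_pow h2 y))

theorem Z_mem : Z ∈ FM 1 := fun i j => by
  have h2 := Submodule.add_mem _ one_mem_F1 one_mem_F1
  fin_cases i <;> fin_cases j
  · exact Submodule.sub_mem _ (Submodule.neg_mem _ h2) h_mem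
  · exact Submodule.neg_mem _ (Submodule.add_mem _ f_mem f_mem)
  · exact Submodule.neg_mem _ (Submodule.add_mem _ e_mem e_mem)
  · exact Submodule.sub_mem _ h_mem h2

theorem lam_mem {a : ℤ} {p : U[X]} (hp : p ∈ FZ a) : lam p ∈ FM a := by
  refine FZ_ind lam.toLinearMap _ a (fun d u hu => ?_) hp
  rw [AlgHom.toLinearMap_apply, ← C_mul_X_pow_eq_monomial, map_mul, map_pow, lam_C, lam_X]
  have := FM_mul (Del_mem hu) (FM_pow (Submodule.sub_mem _ Z_mem
    (FM_mono (by norm_num) one_mem_FM)) d)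
  simpa using this

theorem mv_mem {a b : ℤ} {m : Mat} (hm : m ∈ FM a) {ν : Fin 2 → U} (hν : ∀ i, ν i ∈ F b) (i : Fin 2) :
    mv m ν i ∈ F (a + b) := by
  rw [mv_apply]
  exact Submodule.sum_mem _ fun l _ => mul_mem_F (hm i l) (hν l)

theorem rr_monomial (d : ℕ) (u : U) (ν : Fin 2 → U) (i : Fin 2) :
    (rr (monomial d u)).unop ν i = mv (Z ^ d) ν i * u := by
  rw [← C_mul_X_pow_eq_monomial, map_mul, map_pow, rr_C, rr_X]
  simp only [MulOpposite.unop_mul, MulOpposite.unop_pow, MulOpposite.unop_op,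
    Module.End.mul_apply, ← map_pow, ← rm_mv, rm_apply]

theorem rr_mem {a b : ℤ} {p : U[X]} (hp : p ∈ FZ b) {ν : Fin 2 → U} (hν : ∀ i, ν i ∈ F a)
    (i : Fin 2) : (rr p).unop ν i ∈ F (a + b) := by
  let T : U[X] →ₗ[ℂ] U :=
    { toFun := fun p => (rr p).unop ν i
      map_add' := fun p q => by simp
      map_smul' := fun c p => by simp }
  refine FZ_ind T _ b (fun d u hu => ?_) hp
  change (rr (monomial d u)).unop ν i ∈ _
  rw [rr_monomial]
  have := mul_mem_F (mv_mem (FM_pow Z_mem d) hν i) hu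
  rwa [show (d : ℤ) + a + (b - d) = a + b by ring] at this

theorem RH.fst_mul (x y : RH) : (x * y).fst = x.fst * y.fst := rfl

theorem RH.snd_mul (x y : RH) :
    (x * y).snd = mv (lam x.fst) y.snd + (rr y.fst).unop x.snd := rfl

/-- the filtration -/
noncomputable def GR (b : ℤ) : Submodule ℂ RH where
  carrier := {r | r.fst ∈ FZ b ∧ ∀ i, r.snd i ∈ F (b + 1)}
  add_mem' := fun hp hq => ⟨Submodule.add_mem _ hp.1 hq.1,
    fun i => Submodule.add_mem _ (hp.2 i) (hq.2 i)⟩
  zero_mem' := ⟨Submodule.zero_mem _, fun _ => Submodule.zero_mem _⟩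
  smul_mem' := fun _ _ hp => ⟨Submodule.smul_mem _ _ hp.1,
    fun i => Submodule.smul_mem _ _ (hp.2 i)⟩

theorem mem_GR {b : ℤ} {r : RH} : r ∈ GR b ↔ r.fst ∈ FZ b ∧ ∀ i, r.snd i ∈ F (b + 1) := Iff.rfl

theorem GR_mono : Monotone GR := fun _ _ h _ hr =>
  ⟨FZ_mono h hr.1, fun i => F_mono (by omega) (hr.2 i)⟩

/-- index set for the components -/
abbrev J : Type := ℕ ⊕ Fin 2

/-- weights -/
def wt : J → ℤ
  | .inl d => d
  | .inr _ => -1

/-- components -/
noncomputable def comp : J → RH →ₗ[ℂ] U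
  | .inl d => { toFun := fun r => r.fst.coeff d
                map_add' := fun _ _ => coeff_add _ _ _
                map_smul' := fun _ _ => coeff_smul _ _ _ }
  | .inr i => { toFun := fun r => r.snd i
                map_add' := fun _ _ => rfl
                map_smul' := fun _ _ => rfl }

theorem comp_inl (d : ℕ) (r : RH) : comp (.inl d) r = r.fst.coeff d := rfl
theorem comp_inr (i : Fin 2) (r : RH) : comp (.inr i) r = r.snd i := rfl

theorem mem_GR_iff {b : ℤ} {r : RH} : r ∈ GR b ↔ ∀ j, comp j r ∈ F (b - wt j) := by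
  rw [mem_GR, Sum.forall]
  simp only [comp_inl, comp_inr, wt, mem_FZ, sub_neg_eq_add]

theorem comp_ext {r r' : RH} (h : ∀ j, comp j r = comp j r') : r = r' :=
  TrivSqZeroExt.ext (Polynomial.ext fun d => h (.inl d)) (funext fun i => h (.inr i))

theorem exists_comp (b : ℤ) (c : J → U) (hc : ∀ j, c j ∈ F (b - wt j)) :
    ∃ r ∈ GR b, ∀ j, comp j r = c j := by
  let r : RH := ((∑ d ∈ Finset.range (b.toNat + 1), monomial d (c (.inl d)), fun i => c (.inr i)) :
    U[X] × NB)
  have h : ∀ j, comp j r = c j := by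
    rintro (d | i)
    · change (∑ d ∈ Finset.range (b.toNat + 1), monomial d (c (.inl d))).coeff d = _
      rw [finset_sum_coeff]
      simp only [coeff_monomial, Finset.sum_ite_eq', Finset.mem_range]
      split_ifs with hd
      · rfl
      · exact (F_neg (n := b - d) (by omega) (hc (.inl d))).symm
    · rfl
  exact ⟨r, mem_GR_iff.2 fun j => h j ▸ hc j, h⟩

/-- the inclusion of `U` -/
noncomputable def iU (u : U) : RH := TrivSqZeroExt.inl (C u)

/-- the variable `z` -/
noncomputable def zz : RH := TrivSqZeroExt.inl X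

theorem comp_mul_iU (j : J) (r : RH) (u : U) : comp j (r * iU u) = comp j r * u := by
  rcases j with d | i
  · change (r.fst * C u).coeff d = _
    rw [coeff_mul_C]; rfl
  · change (mv (lam r.fst) 0 + (rr (C u)).unop r.snd) i = _
    rw [map_zero, zero_add, rr_C, rm_apply]; rfl

theorem fst_mul_zz (r : RH) : (r * zz).fst = r.fst * X := rfl

theorem snd_mul_zz (r : RH) : (r * zz).snd = mv Z r.snd := by
  change mv (lam r.fst) 0 + (rr X).unop r.snd = _
  rw [map_zero, zero_add, rr_X]; rfl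

theorem iU_mul (u v : U) : iU (u * v) = iU u * iU v := by simp [iU]
theorem iU_add (u v : U) : iU (u + v) = iU u + iU v := by simp [iU]
theorem iU_sub (u v : U) : iU (u - v) = iU u - iU v := by simp [iU]

theorem iU_mem {a : ℤ} {u : U} (hu : u ∈ F a) : iU u ∈ GR a :=
  ⟨C_mem_FZ hu, fun _ => Submodule.zero_mem _⟩

theorem zz_mem : zz ∈ GR 1 := ⟨X_mem_FZ, fun _ => Submodule.zero_mem _⟩

/-- the filtered algebra -/
noncomputable def 𝒢R : Filt RH where
  G := GR
  one_mem := ⟨one_mem_FZ, fun _ => Submodule.zero_mem _⟩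
  mul_mem := by
    intro a b x y hx hy
    refine ⟨FZ_mul hx.1 hy.1, fun i => ?_⟩
    rw [RH.snd_mul]
    refine Submodule.add_mem _ ?_ ?_
    · have := mv_mem (lam_mem hx.1) hy.2 i
      rwa [← add_assoc] at this
    · have := rr_mem hy.1 hx.2 i
      rwa [add_right_comm] at this
  fd b := by
    let φ : GR b →ₗ[ℂ] (∀ d : Fin (b.toNat + 1), F (b - d)) × (Fin 2 → F (b + 1)) :=
      { toFun := fun r => (fun d => ⟨r.1.fst.coeff d, r.2.1 d⟩, fun i => ⟨r.1.snd i, r.2.2 i⟩)
        map_add' := fun r r' => Prod.ext (funext fun d => Subtype.ext (coeff_add _ _ _)) rfl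
        map_smul' := fun c r => Prod.ext (funext fun d => Subtype.ext (coeff_smul _ _ _)) rfl }
    refine FiniteDimensional.of_injective φ ?_
    rw [injective_iff_map_eq_zero]
    intro r hr
    refine Subtype.ext (comp_ext ?_)
    rintro (d | i)
    · rw [comp_inl]
      by_cases hd : d < b.toNat + 1
      · exact congrArg Subtype.val (congrFun (congrArg Prod.fst hr) ⟨d, hd⟩)
      · exact F_neg (n := b - d) (by omega) (r.2.1 d)
    · exact congrArg Subtype.val (congrFun (congrArg Prod.snd hr) i)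

end Crest.Agent.FinDim
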