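import Mathlib

/-! The Chevalley–Eilenberg complex of a right `sl₂`-module and its filtered exactness. -/

set_option autoImplicit false

namespace Crest.Agent.FinDim

/-- three operators satisfying the (opposite) `sl₂` relations -/
structure Triple (S L : Type) [Ring S] [AddCommGroup L] [Module S L] where
  E : L →ₗ[S] L
  F : L →ₗ[S] L
  H : L →ₗ[S] L
  hHE : ∀ v, H (E v) = E (H v) - (E v + E v)
  hHF : ∀ v, H (F v) = F (H v) + (F v + F v)
  hEF : ∀ v, E (F v) = F (E v) - H v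

namespace Triple

section defs

variable {S L : Type} [Ring S] [AddCommGroup L] [Module S L] (T : Triple S L)

/-- first differential -/
def d1 : (L × L × L) →ₗ[S] L where
  toFun c := T.E c.1 + T.F c.2.1 + T.H c.2.2
  map_add' c c' := by simp only [Prod.fst_add, Prod.snd_add, map_add]; abel
  map_smul' a c := by simp only [Prod.smul_fst, Prod.smul_snd, map_smul, smul_add, RingHom.id_apply]

/-- second differential -/
def d2 : (L × L × L) →ₗ[S] (L × L × L) where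
  toFun c := (T.F c.1 + (c.2.1 + c.2.1) - T.H c.2.1, - T.E c.1 - T.H c.2.2 - (c.2.2 + c.2.2),
    c.1 + T.E c.2.1 + T.F c.2.2)
  map_add' c c' := by
    simp only [Prod.fst_add, Prod.snd_add, map_add, Prod.mk_add_mk]
    refine Prod.ext ?_ (Prod.ext ?_ ?_) <;> simp only <;> abel
  map_smul' a c := by
    simp only [Prod.smul_fst, Prod.smul_snd, map_smul, smul_add, RingHom.id_apply, Prod.smul_mk,
      smul_sub, smul_neg]

/-- third differential -/
def d3 : L →ₗ[S] (L × L × L) where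
  toFun v := (T.H v, T.F v, - T.E v)
  map_add' c c' := by
    simp only [map_add, Prod.mk_add_mk]
    refine Prod.ext ?_ (Prod.ext ?_ ?_) <;> simp only <;> abel
  map_smul' a c := by
    simp only [map_smul, RingHom.id_apply, Prod.smul_mk, smul_neg]

theorem d1_apply (c : L × L × L) : T.d1 c = T.E c.1 + T.F c.2.1 + T.H c.2.2 := rfl

theorem d2_apply (c : L × L × L) : T.d2 c = (T.F c.1 + (c.2.1 + c.2.1) - T.H c.2.1,
    - T.E c.1 - T.H c.2.2 - (c.2.2 + c.2.2), c.1 + T.E c.2.1 + T.F c.2.2) := rfl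

theorem d3_apply (v : L) : T.d3 v = (T.H v, T.F v, - T.E v) := rfl

theorem d1_d2 (c : L × L × L) : T.d1 (T.d2 c) = 0 := by
  simp only [d1_apply, d2_apply, map_add, map_sub, map_neg, T.hHE, T.hHF, T.hEF]
  abel

theorem d2_d3 (v : L) : T.d2 (T.d3 v) = 0 := by
  simp only [d2_apply, d3_apply, map_neg, T.hHE, T.hHF, T.hEF]
  refine Prod.ext ?_ (Prod.ext ?_ ?_) <;> simp only [Prod.fst_zero, Prod.snd_zero] <;> abel

end defs

end Triple

section homotopy

variable {C₀ C₁ C₂ : Type} [AddCommGroup C₀] [Module ℂ C₀] [AddCommGroup C₁] [Module ℂ C₁]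
  [AddCommGroup C₂] [Module ℂ C₂]

/-- filtered contracting homotopy: cycles can be pushed down the filtration -/
theorem filtered_homotopy (d' : C₂ →ₗ[ℂ] C₁) (d : C₁ →ₗ[ℂ] C₀) (hdd : ∀ c, d (d' c) = 0)
    (Φ₁ : ℤ → Submodule ℂ C₁) (Φ₂ : ℤ → Submodule ℂ C₂) (hmono₂ : Monotone Φ₂)
    (s : C₁ → C₂) (hs : ∀ b c, c ∈ Φ₁ b → s c ∈ Φ₂ (b - 1)) (lam : ℤ → ℂ) (b₀ : ℤ)
    (hlam : ∀ b, b₀ < b → lam b ≠ 0)
    (hh : ∀ b c, c ∈ Φ₁ b → d c = 0 → d' (s c) - lam b • c ∈ Φ₁ (b - 1)) (n : ℕ) :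
    ∀ c ∈ Φ₁ (b₀ + n), d c = 0 → ∃ c' ∈ Φ₂ (b₀ + n - 1), c - d' c' ∈ Φ₁ b₀ := by
  induction n with
  | zero => intro c hc _; exact ⟨0, Submodule.zero_mem _, by simpa using hc⟩
  | succ n ih =>
    intro c hc hdc
    set b : ℤ := b₀ + (n + 1 : ℕ) with hb
    have hl : lam b ≠ 0 := hlam b (by push_cast at hb; omega)
    have h1 : c - d' ((lam b)⁻¹ • s c) ∈ Φ₁ (b₀ + n) := by
      have h2 := Submodule.smul_mem _ (-(lam b)⁻¹) (hh b c hc hdc)
      have h3 : b - 1 = b₀ + n := by push_cast at hb; omega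
      rw [h3] at h2
      convert h2 using 1
      rw [map_smul, smul_sub, smul_smul, neg_mul, inv_mul_cancel₀ hl]
      simp only [neg_smul, one_smul]
      abel
    obtain ⟨c', hc', hc''⟩ := ih _ h1 (by rw [map_sub, hdd, hdc, sub_zero])
    refine ⟨(lam b)⁻¹ • s c + c', Submodule.add_mem _ (Submodule.smul_mem _ _ (hs b c hc))
      (hmono₂ (by push_cast at hb; omega) hc'), ?_⟩
    convert hc'' using 1
    rw [map_add]
    abel

end homotopy

/-- Data making the filtered Chevalley–Eilenberg complex exact. -/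
structure KData {L : Type} [AddCommGroup L] [Module ℂ L] (T : Triple ℂ L) where
  Φ : ℤ → Submodule ℂ L
  mono : Monotone Φ
  bot : ∀ b < 0, Φ b = ⊥
  DE : L →ₗ[ℂ] L
  DF : L →ₗ[ℂ] L
  DH : L →ₗ[ℂ] L
  hDE : ∀ b v, v ∈ Φ b → DE v ∈ Φ (b - 1)
  hDF : ∀ b v, v ∈ Φ b → DF v ∈ Φ (b - 1)
  hDH : ∀ b v, v ∈ Φ b → DH v ∈ Φ (b - 1)
  kEE : ∀ b v, v ∈ Φ b → DE (T.E v) - T.E (DE v) - v ∈ Φ (b - 1)
  kEF : ∀ b v, v ∈ Φ b → DE (T.F v) - T.F (DE v) ∈ Φ (b - 1)
  kEH : ∀ b v, v ∈ Φ b → DE (T.H v) - T.H (DE v) ∈ Φ (b - 1)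
  kFE : ∀ b v, v ∈ Φ b → DF (T.E v) - T.E (DF v) ∈ Φ (b - 1)
  kFF : ∀ b v, v ∈ Φ b → DF (T.F v) - T.F (DF v) - v ∈ Φ (b - 1)
  kFH : ∀ b v, v ∈ Φ b → DF (T.H v) - T.H (DF v) ∈ Φ (b - 1)
  kHE : ∀ b v, v ∈ Φ b → DH (T.E v) - T.E (DH v) ∈ Φ (b - 1)
  kHF : ∀ b v, v ∈ Φ b → DH (T.F v) - T.F (DH v) ∈ Φ (b - 1)
  kHH : ∀ b v, v ∈ Φ b → DH (T.H v) - T.H (DH v) - v ∈ Φ (b - 1)
  euler : ∀ b v, v ∈ Φ b → T.E (DE v) + T.F (DF v) + T.H (DH v) - (b : ℂ) • v ∈ Φ (b - 1)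

namespace KData

variable {L : Type} [AddCommGroup L] [Module ℂ L] {T : Triple ℂ L} (K : KData T)

/-- filtration on triples -/
def Φ3 (b : ℤ) : Submodule ℂ (L × L × L) := (K.Φ b).prod ((K.Φ b).prod (K.Φ b))

theorem mem_Φ3 {b : ℤ} {c : L × L × L} :
    c ∈ K.Φ3 b ↔ c.1 ∈ K.Φ b ∧ c.2.1 ∈ K.Φ b ∧ c.2.2 ∈ K.Φ b := Iff.rfl

theorem mono3 : Monotone K.Φ3 := fun _ _ h _ hc =>
  ⟨K.mono h hc.1, K.mono h hc.2.1, K.mono h hc.2.2⟩

theorem Φ3_neg (c : L × L × L) (hc : c ∈ K.Φ3 (-1)) : c = 0 := by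
  rw [mem_Φ3, K.bot (-1) (by norm_num)] at hc
  exact Prod.ext hc.1 (Prod.ext hc.2.1 hc.2.2)

theorem exact0 (b : ℤ) (l : L) (hl : l ∈ K.Φ b) :
    ∃ c ∈ K.Φ3 (b - 1), l - T.d1 c ∈ K.Φ 0 := by
  rcases lt_or_ge b 0 with hb | hb
  · exact ⟨0, Submodule.zero_mem _, by simpa using K.mono hb.le hl⟩
  obtain ⟨n, rfl⟩ := Int.eq_ofNat_of_zero_le hb
  have := filtered_homotopy T.d1 (0 : L →ₗ[ℂ] L) (fun _ => rfl) K.Φ K.Φ3 K.mono3
    (fun l => (K.DE l, K.DF l, K.DH l))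
    (fun b c hc => ⟨K.hDE b c hc, K.hDF b c hc, K.hDH b c hc⟩) (fun b => (b : ℂ)) 0
    (fun b hb => by exact_mod_cast hb.ne') (fun b c hc _ => K.euler b c hc) n l
    (by simpa using hl) rfl
  simpa using this

theorem mem_of_eq {S : Submodule ℂ L} {x y : L} (hx : x ∈ S) (h : y = x) : y ∈ S := h ▸ hx

theorem exact1 (b : ℤ) (c : L × L × L) (hc : c ∈ K.Φ3 b) (h0 : T.d1 c = 0) :
    ∃ c' ∈ K.Φ3 (b - 1), T.d2 c' = c := by
  rcases lt_or_ge b (-1) with hb | hb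
  · exact ⟨0, Submodule.zero_mem _, by rw [K.Φ3_neg c (K.mono3 hb.le hc), map_zero]⟩
  obtain ⟨n, hn⟩ := Int.eq_ofNat_of_zero_le (show 0 ≤ b + 1 by omega)
  obtain rfl : b = -1 + n := by omega
  obtain ⟨c', hc', h⟩ := filtered_homotopy T.d2 T.d1 T.d1_d2 K.Φ3 K.Φ3 K.mono3
    (fun c => (K.DF c.1 - K.DE c.2.1, K.DE c.2.2 - K.DH c.1, K.DF c.2.2 - K.DH c.2.1))
    (fun b c hc => ⟨Submodule.sub_mem _ (K.hDF b _ hc.1) (K.hDE b _ hc.2.1),
      Submodule.sub_mem _ (K.hDE b _ hc.2.2) (K.hDH b _ hc.1),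
      Submodule.sub_mem _ (K.hDF b _ hc.2.2) (K.hDH b _ hc.2.1)⟩) (fun b => (b : ℂ) + 1) (-1)
    (fun b hb => by
      have : b + 1 ≠ 0 := by omega
      exact_mod_cast this)
    (by
      rintro b ⟨x, y, z⟩ hc hd
      rw [mem_Φ3] at hc
      obtain ⟨hx, hy, hz⟩ := hc
      simp only [Triple.d1_apply] at hd hx hy hz
      have hq := Submodule.sub_mem _ (K.hDE b _ hz) (K.hDH b _ hx)
      have hr := Submodule.sub_mem _ (K.hDF b _ hz) (K.hDH b _ hy)
      have hp := Submodule.sub_mem _ (K.hDF b _ hx) (K.hDE b _ hy)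
      have e1 := congrArg K.DE hd
      have e2 := congrArg K.DF hd
      have e3 := congrArg K.DH hd
      simp only [map_add, map_zero] at e1 e2 e3
      rw [mem_Φ3]
      simp only [Triple.d2_apply, map_sub, Prod.fst_sub, Prod.snd_sub, Prod.smul_fst,
          Prod.smul_snd]
      refine ⟨?_, ?_, ?_⟩
      · refine mem_of_eq (Submodule.add_mem _ (Submodule.add_mem _ (K.euler b _ hx)
          (Submodule.add_mem _ (Submodule.add_mem _
          (K.kEE b _ hx) (K.kEF b _ hy)) (K.kEH b _ hz))) (Submodule.add_mem _ hq hq)) ?_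
        linear_combination (norm := module) -e1
      · refine mem_of_eq (Submodule.sub_mem _ (Submodule.add_mem _ (K.euler b _ hy)
          (Submodule.add_mem _ (Submodule.add_mem _
          (K.kFE b _ hx) (K.kFF b _ hy)) (K.kFH b _ hz))) (Submodule.add_mem _ hr hr)) ?_
        linear_combination (norm := module) -e2
      · refine mem_of_eq (Submodule.add_mem _ (Submodule.add_mem _ (K.euler b _ hz)
          (Submodule.add_mem _ (Submodule.add_mem _
          (K.kHE b _ hx) (K.kHF b _ hy)) (K.kHH b _ hz))) hp) ?_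
        linear_combination (norm := module) -e3) n c hc h0
  exact ⟨c', hc', (sub_eq_zero.1 (K.Φ3_neg _ h)).symm⟩

theorem exact2 (b : ℤ) (c : L × L × L) (hc : c ∈ K.Φ3 b) (h0 : T.d2 c = 0) :
    ∃ c' ∈ K.Φ (b - 1), T.d3 c' = c := by
  rcases lt_or_ge b (-1) with hb | hb
  · exact ⟨0, Submodule.zero_mem _, by rw [K.Φ3_neg c (K.mono3 hb.le hc), map_zero]⟩
  obtain ⟨n, hn⟩ := Int.eq_ofNat_of_zero_le (show 0 ≤ b + 1 by omega)
  obtain rfl : b = -1 + n := by omega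
  obtain ⟨c', hc', h⟩ := filtered_homotopy T.d3 T.d2 T.d2_d3 K.Φ3 K.Φ K.mono
    (fun c => K.DH c.1 + K.DF c.2.1 - K.DE c.2.2)
    (fun b c hc => Submodule.sub_mem _ (Submodule.add_mem _ (K.hDH b _ hc.1) (K.hDF b _ hc.2.1))
      (K.hDE b _ hc.2.2)) (fun b => (b : ℂ) + 2) (-1)
    (fun b hb => by
      have : b + 2 ≠ 0 := by omega
      exact_mod_cast this)
    (by
      rintro b ⟨p, q, r⟩ hc hd
      rw [mem_Φ3] at hc
      obtain ⟨hp, hq, hr⟩ := hc
      simp only [Triple.d2_apply, Prod.mk_eq_zero] at hd hp hq hr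
      obtain ⟨ha, hb, hc⟩ := hd
      have e1 : K.DF (T.F p + (q + q) - T.H q) - K.DE (-T.E p - T.H r - (r + r)) = 0 := by
        rw [ha, hb]; simp
      have e2 : K.DE (p + T.E q + T.F r) - K.DH (T.F p + (q + q) - T.H q) = 0 := by
        rw [ha, hc]; simp
      have e3 : K.DF (p + T.E q + T.F r) - K.DH (-T.E p - T.H r - (r + r)) = 0 := by
        rw [hb, hc]; simp
      simp only [map_add, map_sub, map_neg] at e1 e2 e3
      rw [mem_Φ3]
      simp only [Triple.d3_apply, map_sub, map_add, Prod.fst_sub, Prod.snd_sub, Prod.smul_fst,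
          Prod.smul_snd, Prod.fst_add, Prod.snd_add]
      refine ⟨?_, ?_, ?_⟩
      · refine mem_of_eq (Submodule.add_mem _ (K.euler b _ hp) (Submodule.add_mem _
          (Submodule.add_mem _ (Submodule.add_mem _
          (Submodule.sub_mem _ (Submodule.add_mem _ (K.kFF b _ hp) (K.kEE b _ hp)) (K.kFH b _ hq))
          (K.kEH b _ hr))
          (Submodule.add_mem _ (K.hDF b _ hq) (K.hDF b _ hq)))
          (Submodule.add_mem _ (K.hDE b _ hr) (K.hDE b _ hr)))) ?_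
        linear_combination (norm := module) -e1
      · refine mem_of_eq (Submodule.add_mem _ (K.euler b _ hq) (Submodule.sub_mem _
          (Submodule.add_mem _ (Submodule.add_mem _
          (Submodule.sub_mem _ (Submodule.add_mem _ (K.kEE b _ hq) (K.kEF b _ hr)) (K.kHF b _ hp))
          (K.kHH b _ hq)) (K.hDE b _ hp))
          (Submodule.add_mem _ (K.hDH b _ hq) (K.hDH b _ hq)))) ?_
        linear_combination (norm := module) -e2
      · refine mem_of_eq (Submodule.add_mem _ (K.euler b _ hr) (Submodule.add_mem _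
          (Submodule.add_mem _ (Submodule.add_mem _
          (Submodule.add_mem _ (Submodule.add_mem _ (K.kFE b _ hq) (K.kFF b _ hr)) (K.kHE b _ hp))
          (K.kHH b _ hr)) (K.hDF b _ hp))
          (Submodule.add_mem _ (K.hDH b _ hr) (K.hDH b _ hr)))) ?_
        linear_combination (norm := module) -e3) n c hc h0
  exact ⟨c', hc', (sub_eq_zero.1 (K.Φ3_neg _ h)).symm⟩

theorem exact3 (b : ℤ) (v : L) (hv : v ∈ K.Φ b) (h0 : T.d3 v = 0) : v = 0 := by
  have hbot : ∀ v ∈ K.Φ (-1), v = 0 := fun v hv => by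
    rwa [K.bot (-1) (by norm_num)] at hv
  rcases lt_or_ge b (-1) with hb | hb
  · exact hbot _ (K.mono hb.le hv)
  obtain ⟨n, hn⟩ := Int.eq_ofNat_of_zero_le (show 0 ≤ b + 1 by omega)
  obtain rfl : b = -1 + n := by omega
  obtain ⟨c', _, h⟩ := filtered_homotopy (0 : L →ₗ[ℂ] L) T.d3 (fun _ => by simp) K.Φ
    (fun _ => ⊤) (fun _ _ _ => le_rfl) (fun _ => 0) (fun _ _ _ => trivial)
    (fun b => (b : ℂ) + 3) (-1)
    (fun b hb => by
      have : b + 3 ≠ 0 := by omega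
      exact_mod_cast this)
    (by
      intro b v hv hd
      simp only [Triple.d3_apply, Prod.mk_eq_zero, neg_eq_zero] at hd
      obtain ⟨h1, h2, h3⟩ := hd
      have := Submodule.add_mem _ (Submodule.add_mem _ (Submodule.add_mem _ (K.kEE b _ hv)
        (K.kFF b _ hv)) (K.kHH b _ hv)) (K.euler b _ hv)
      rw [h1, h2, h3] at this
      simp only [map_zero] at this ⊢
      refine mem_of_eq this ?_
      module) n v hv h0
  exact hbot _ (by simpa using h)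

end KData

end Crest.Agent.FinDim
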