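import Mathlib
import Crest.Agent.FinDim.Koszul
import Crest.Agent.FinDim.PBW

/-! Twisting a right `sl₂`-module by a finite-dimensional left module. -/

set_option autoImplicit false

namespace Crest.Agent.FinDim

/-- an `sl₂`-triple of complex matrices -/
structure MTriple (ι : Type) [Fintype ι] where
  e : Matrix ι ι ℂ
  f : Matrix ι ι ℂ
  h : Matrix ι ι ℂ
  he : h * e = e * h + (e + e)
  hf : h * f = f * h - (f + f)
  ef : e * f = f * e + h

section twist

variable {S L : Type} [Ring S] [Algebra ℂ S] [AddCommGroup L] [Module S L] [Module ℂ L]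
  [IsScalarTower ℂ S L] {ι : Type} [Fintype ι]

/-- action of a scalar matrix -/
def ms (S : Type) {L : Type} [Ring S] [Algebra ℂ S] [AddCommGroup L] [Module S L] [Module ℂ L]
    [IsScalarTower ℂ S L] (m : Matrix ι ι ℂ) : (ι → L) →ₗ[S] (ι → L) where
  toFun l s := ∑ t, m s t • l t
  map_add' l l' := by ext s; simp [Finset.sum_add_distrib]
  map_smul' a l := by
    ext s
    simp only [Pi.smul_apply, RingHom.id_apply, Finset.smul_sum]
    exact Finset.sum_congr rfl fun t _ => smul_comm _ _ _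

theorem ms_apply (m : Matrix ι ι ℂ) (l : ι → L) (s : ι) : ms S m l s = ∑ t, m s t • l t := rfl

theorem ms_mul (m m' : Matrix ι ι ℂ) (l : ι → L) : ms S (m * m') l = ms S m (ms S m' l) := by
  ext s
  simp only [ms_apply, Matrix.mul_apply, Finset.sum_smul, Finset.smul_sum, smul_smul]
  rw [Finset.sum_comm]

theorem ms_add (m m' : Matrix ι ι ℂ) (l : ι → L) : ms S (m + m') l = ms S m l + ms S m' l := by
  ext s
  simp [ms_apply, add_smul, Finset.sum_add_distrib]

theorem ms_sub (m m' : Matrix ι ι ℂ) (l : ι → L) : ms S (m - m') l = ms S m l - ms S m' l := by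
  ext s
  simp [ms_apply, sub_smul, Finset.sum_sub_distrib]

theorem compLeft_ms (R : L →ₗ[S] L) (m : Matrix ι ι ℂ) (l : ι → L) :
    R.compLeft ι (ms S m l) = ms S m (R.compLeft ι l) := by
  ext s
  simp [ms_apply, map_sum, LinearMap.map_smul_of_tower]

/-- the twisted triple -/
def Triple.twist (T : Triple S L) (m : MTriple ι) : Triple S (ι → L) where
  E := T.E.compLeft ι - ms S m.e
  F := T.F.compLeft ι - ms S m.f
  H := T.H.compLeft ι - ms S m.h
  hHE v := by
    have h1 : T.H.compLeft ι (T.E.compLeft ι v) = T.E.compLeft ι (T.H.compLeft ι v) -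
      (T.E.compLeft ι v + T.E.compLeft ι v) := funext fun s => T.hHE _
    simp only [LinearMap.sub_apply, map_sub, compLeft_ms, ← ms_mul, h1, m.he, ms_add]
    abel
  hHF v := by
    have h1 : T.H.compLeft ι (T.F.compLeft ι v) = T.F.compLeft ι (T.H.compLeft ι v) +
      (T.F.compLeft ι v + T.F.compLeft ι v) := funext fun s => T.hHF _
    simp only [LinearMap.sub_apply, map_sub, compLeft_ms, ← ms_mul, h1, m.hf, ms_add, ms_sub]
    abel
  hEF v := by
    have h1 : T.E.compLeft ι (T.F.compLeft ι v) = T.F.compLeft ι (T.E.compLeft ι v) -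
      T.H.compLeft ι v := funext fun s => T.hEF _
    simp only [LinearMap.sub_apply, map_sub, compLeft_ms, ← ms_mul, h1, m.ef, ms_add]
    abel

theorem Triple.twist_E (T : Triple S L) (m : MTriple ι) (l : ι → L) (s : ι) :
    (T.twist m).E l s = T.E (l s) - ∑ t, m.e s t • l t := rfl
theorem Triple.twist_F (T : Triple S L) (m : MTriple ι) (l : ι → L) (s : ι) :
    (T.twist m).F l s = T.F (l s) - ∑ t, m.f s t • l t := rfl
theorem Triple.twist_H (T : Triple S L) (m : MTriple ι) (l : ι → L) (s : ι) :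
    (T.twist m).H l s = T.H (l s) - ∑ t, m.h s t • l t := rfl

end twist

section ktwist

variable {L : Type} [AddCommGroup L] [Module ℂ L] {T : Triple ℂ L} {ι : Type} [Fintype ι]

theorem aux_twist (Φ : Submodule ℂ L) (D R : L →ₗ[ℂ] L) (m : Matrix ι ι ℂ) (v : ι → L) (s : ι)
    (w : L) (h : D (R (v s)) - R (D (v s)) - w ∈ Φ) :
    D (R (v s) - ∑ t, m s t • v t) - (R (D (v s)) - ∑ t, m s t • D (v t)) - w ∈ Φ := by
  refine KData.mem_of_eq h ?_
  simp only [map_sub, map_sum, map_smul]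
  abel

theorem aux_twist' (Φ : Submodule ℂ L) (D R : L →ₗ[ℂ] L) (m : Matrix ι ι ℂ) (v : ι → L) (s : ι)
    (h : D (R (v s)) - R (D (v s)) ∈ Φ) :
    D (R (v s) - ∑ t, m s t • v t) - (R (D (v s)) - ∑ t, m s t • D (v t)) ∈ Φ := by
  simpa using aux_twist Φ D R m v s 0 (by simpa using h)

/-- twisting the homotopy data -/
def KData.twist (K : KData T) (m : MTriple ι) : KData (T.twist m) where
  Φ b := Submodule.pi Set.univ fun _ => K.Φ b
  mono := fun _ _ h _ hv s hs => K.mono h (hv s hs)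
  bot b hb := by simp [K.bot b hb]
  DE := K.DE.compLeft ι
  DF := K.DF.compLeft ι
  DH := K.DH.compLeft ι
  hDE b v hv s hs := K.hDE b _ (hv s hs)
  hDF b v hv s hs := K.hDF b _ (hv s hs)
  hDH b v hv s hs := K.hDH b _ (hv s hs)
  kEE b v hv s hs := aux_twist _ K.DE T.E m.e v s _ (K.kEE b _ (hv s hs))
  kEF b v hv s hs := aux_twist' _ K.DE T.F m.f v s (K.kEF b _ (hv s hs))
  kEH b v hv s hs := aux_twist' _ K.DE T.H m.h v s (K.kEH b _ (hv s hs))
  kFE b v hv s hs := aux_twist' _ K.DF T.E m.e v s (K.kFE b _ (hv s hs))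
  kFF b v hv s hs := aux_twist _ K.DF T.F m.f v s _ (K.kFF b _ (hv s hs))
  kFH b v hv s hs := aux_twist' _ K.DF T.H m.h v s (K.kFH b _ (hv s hs))
  kHE b v hv s hs := aux_twist' _ K.DH T.E m.e v s (K.kHE b _ (hv s hs))
  kHF b v hv s hs := aux_twist' _ K.DH T.F m.f v s (K.kHF b _ (hv s hs))
  kHH b v hv s hs := aux_twist _ K.DH T.H m.h v s _ (K.kHH b _ (hv s hs))
  euler b v hv s hs := by
    have h1 : ∀ (mm : Matrix ι ι ℂ) (D : L →ₗ[ℂ] L), (∀ x ∈ K.Φ b, D x ∈ K.Φ (b - 1)) →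
        ∑ t, mm s t • D (v t) ∈ K.Φ (b - 1) := fun mm D hD =>
      Submodule.sum_mem _ fun t _ => Submodule.smul_mem _ _ (hD _ (hv t trivial))
    refine KData.mem_of_eq (Submodule.sub_mem _ (K.euler b _ (hv s hs))
      (Submodule.add_mem _ (Submodule.add_mem _ (h1 m.e _ (K.hDE b)) (h1 m.f _ (K.hDF b)))
        (h1 m.h _ (K.hDH b)))) ?_
    change (T.E (K.DE (v s)) - ∑ t, m.e s t • K.DE (v t)) +
      (T.F (K.DF (v s)) - ∑ t, m.f s t • K.DF (v t)) +
      (T.H (K.DH (v s)) - ∑ t, m.h s t • K.DH (v t)) - (b : ℂ) • v s = _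
    abel

theorem KData.mem_twist (K : KData T) (m : MTriple ι) {b : ℤ} {v : ι → L} :
    v ∈ (K.twist m).Φ b ↔ ∀ s, v s ∈ K.Φ b :=
  ⟨fun h s => h s trivial, fun h s _ => h s⟩

end ktwist

/-- the triple on the polynomial model -/
noncomputable def TP : Triple ℂ P where
  E := Re
  F := Rf
  H := Rh
  hHE := R_he
  hHF := R_hf
  hEF := R_ef

open MvPolynomial in
theorem aux_KP (i j : Fin 3) (R' : P →ₗ[ℂ] P) (hR : ∀ n p, p ∈ degF n → R' p ∈ degF n) (b : ℤ)
    (v : P) (hv : v ∈ degF b) :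
    D i (X j * v + R' v) - (X j * D i v + R' (D i v)) - D i (X j) * v ∈ degF (b - 1) := by
  refine KData.mem_of_eq (Submodule.sub_mem _ (D_mem i _ _ (hR _ _ hv))
    (hR _ _ (D_mem i _ _ hv))) ?_
  rw [map_add, D_mul]
  ring

/-- homotopy data on the polynomial model -/
noncomputable def KP : KData TP where
  Φ := degF
  mono := degF_mono
  bot := degF_neg
  DE := D 0
  DF := D 1
  DH := D 2
  hDE := D_mem 0
  hDF := D_mem 1
  hDH := D_mem 2
  kEE b v hv := by simpa [TP, Re_apply, Rf_apply, Rh_apply] using aux_KP 0 0 Re' Re'_mem b v hv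
  kEF b v hv := by simpa [TP, Re_apply, Rf_apply, Rh_apply] using aux_KP 0 1 0 (by simp) b v hv
  kEH b v hv := by simpa [TP, Re_apply, Rf_apply, Rh_apply] using aux_KP 0 2 Rh' Rh'_mem b v hv
  kFE b v hv := by simpa [TP, Re_apply, Rf_apply, Rh_apply] using aux_KP 1 0 Re' Re'_mem b v hv
  kFF b v hv := by simpa [TP, Re_apply, Rf_apply, Rh_apply] using aux_KP 1 1 0 (by simp) b v hv
  kFH b v hv := by simpa [TP, Re_apply, Rf_apply, Rh_apply] using aux_KP 1 2 Rh' Rh'_mem b v hv
  kHE b v hv := by simpa [TP, Re_apply, Rf_apply, Rh_apply] using aux_KP 2 0 Re' Re'_mem b v hv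
  kHF b v hv := by simpa [TP, Re_apply, Rf_apply, Rh_apply] using aux_KP 2 1 0 (by simp) b v hv
  kHH b v hv := by simpa [TP, Re_apply, Rf_apply, Rh_apply] using aux_KP 2 2 Rh' Rh'_mem b v hv
  euler b v hv := by
    refine KData.mem_of_eq (Submodule.add_mem _ (euler_mem b v hv)
      (Submodule.add_mem _ (Re'_mem _ _ (D_mem 0 _ _ hv)) (Rh'_mem _ _ (D_mem 2 _ _ hv)))) ?_
    change Re (D 0 v) + Rf (D 1 v) + Rh (D 2 v) - (b : ℂ) • v = _
    rw [Re_apply, Rf_apply, Rh_apply]
    abel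

section natural

variable {S L S' L' : Type} [Ring S] [AddCommGroup L] [Module S L]
  [Ring S'] [AddCommGroup L'] [Module S' L']

/-- additive maps intertwining two triples -/
structure Inter (T : Triple S L) (T' : Triple S' L') (κ : L →+ L') : Prop where
  E : ∀ v, κ (T.E v) = T'.E (κ v)
  F : ∀ v, κ (T.F v) = T'.F (κ v)
  H : ∀ v, κ (T.H v) = T'.H (κ v)

/-- induced map on triples of vectors -/
def k3 (κ : L →+ L') (c : L × L × L) : L' × L' × L' := (κ c.1, κ c.2.1, κ c.2.2)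

variable {T : Triple S L} {T' : Triple S' L'} {κ : L →+ L'}

theorem Inter.d1 (h : Inter T T' κ) (c : L × L × L) : κ (T.d1 c) = T'.d1 (k3 κ c) := by
  simp only [Triple.d1_apply, map_add, h.E, h.F, h.H, k3]

theorem Inter.d2 (h : Inter T T' κ) (c : L × L × L) : k3 κ (T.d2 c) = T'.d2 (k3 κ c) := by
  simp only [Triple.d2_apply, map_add, map_sub, map_neg, h.E, h.F, h.H, k3]

theorem Inter.d3 (h : Inter T T' κ) (v : L) : k3 κ (T.d3 v) = T'.d3 (κ v) := by
  simp only [Triple.d3_apply, map_neg, h.E, h.F, h.H, k3]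

end natural

end Crest.Agent.FinDim
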