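import Mathlib
import Crest.Agent.FinDim.RFilt
import Crest.Agent.FinDim.Twist

/-! The filtered Chevalley–Eilenberg complex over `U(sl₂)[z] ⋉ N`. -/

set_option autoImplicit false

namespace Crest.Agent.FinDim

open Polynomial U

/-- right multiplication, as a left linear map -/
noncomputable def rmul (x : RH) : RH →ₗ[RH] RH := LinearMap.toSpanSingleton RH RH x

theorem rmul_apply (x r : RH) : rmul x r = r * x := rfl

/-- the regular triple -/
noncomputable def TR0 : Triple RH RH where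
  E := rmul (iU e)
  F := rmul (iU f)
  H := rmul (iU h)
  hHE v := by
    simp only [rmul_apply, mul_assoc, ← iU_mul, ← mul_add, ← mul_sub, ← iU_add, ← iU_sub]
    rw [he]; simp
  hHF v := by
    simp only [rmul_apply, mul_assoc, ← iU_mul, ← mul_add, ← mul_sub, ← iU_add, ← iU_sub]
    rw [hf]; simp
  hEF v := by
    simp only [rmul_apply, mul_assoc, ← iU_mul, ← mul_add, ← mul_sub, ← iU_add, ← iU_sub]
    rw [ef]; simp

variable {M : Type} [AddCommGroup M] [Module ℂ M] [FiniteDimensional ℂ M]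
  (ρ : U →ₐ[ℂ] Module.End ℂ M)

/-- index set of a basis -/
abbrev Ix (M : Type) [AddCommGroup M] [Module ℂ M] : Type := Fin (Module.finrank ℂ M)

/-- chosen basis -/
noncomputable def bs (M : Type) [AddCommGroup M] [Module ℂ M] [FiniteDimensional ℂ M] :
    Module.Basis (Ix M) ℂ M := Module.finBasis ℂ M

/-- matrix representation -/
noncomputable def rmat : U →ₐ[ℂ] Matrix (Ix M) (Ix M) ℂ :=
  (LinearMap.toMatrixAlgEquiv (bs M)).toAlgHom.comp ρ

theorem sum_rmat (u : U) (t : Ix M) : ∑ s, rmat ρ u s t • bs M s = ρ u (bs M t) := by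
  simp [rmat, LinearMap.toMatrixAlgEquiv_apply]

/-- the matrix triple -/
noncomputable def mt : MTriple (Ix M) where
  e := rmat ρ e
  f := rmat ρ f
  h := rmat ρ h
  he := by rw [← map_mul, he]; simp
  hf := by rw [← map_mul, hf]; simp
  ef := by rw [← map_mul, ef]; simp

/-- the twisted triple over `RH` -/
noncomputable def TR : Triple RH (Ix M → RH) := TR0.twist (mt ρ)

/-- the twisted triple on the polynomial model -/
noncomputable def TPm : Triple ℂ (Ix M → P) := TP.twist (mt ρ)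

/-- component maps to the polynomial model -/
noncomputable def kP (j : J) : (Ix M → RH) →+ (Ix M → P) where
  toFun l t := phi (comp j (l t))
  map_zero' := by ext1; simp
  map_add' l l' := by ext1; simp

omit [FiniteDimensional ℂ M] in
theorem kP_apply (j : J) (l : Ix M → RH) (t : Ix M) : kP j l t = phi (comp j (l t)) := rfl

theorem inter (j : J) : Inter (TR ρ) (TPm ρ) (kP j) where
  E v := by
    ext1 s
    change phi (comp j (v s * iU e - ∑ t, (mt ρ).e s t • v t)) =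
      Re (phi (comp j (v s))) - ∑ t, (mt ρ).e s t • phi (comp j (v t))
    simp only [map_sub, map_sum, map_smul, comp_mul_iU, phi_mul_e]
  F v := by
    ext1 s
    change phi (comp j (v s * iU f - ∑ t, (mt ρ).f s t • v t)) =
      Rf (phi (comp j (v s))) - ∑ t, (mt ρ).f s t • phi (comp j (v t))
    simp only [map_sub, map_sum, map_smul, comp_mul_iU, phi_mul_f]
  H v := by
    ext1 s
    change phi (comp j (v s * iU h - ∑ t, (mt ρ).h s t • v t)) =
      Rh (phi (comp j (v s))) - ∑ t, (mt ρ).h s t • phi (comp j (v t))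
    simp only [map_sub, map_sum, map_smul, comp_mul_iU, phi_mul_h]

/-- filtration on `L` -/
def InL (b : ℤ) (l : Ix M → RH) : Prop := ∀ t, l t ∈ GR b

/-- filtration on `L³` -/
def InL3 (b : ℤ) (c : (Ix M → RH) × (Ix M → RH) × (Ix M → RH)) : Prop :=
  InL b c.1 ∧ InL b c.2.1 ∧ InL b c.2.2

/-- homotopy data -/
noncomputable def Km : KData (TPm ρ) := KP.twist (mt ρ)

theorem mem_Km {b : ℤ} {v : Ix M → P} : v ∈ (Km ρ).Φ b ↔ ∀ s, v s ∈ degF b :=
  KP.mem_twist (mt ρ)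

theorem InL.kP {b : ℤ} {l : Ix M → RH} (hl : InL b l) (j : J) : kP j l ∈ (Km ρ).Φ (b - wt j) :=
  (mem_Km ρ).2 fun s => mem_GR_iff.1 (hl s) j

theorem InL3.kP {b : ℤ} {c : (Ix M → RH) × (Ix M → RH) × (Ix M → RH)} (hc : InL3 b c) (j : J) :
    k3 (FinDim.kP j) c ∈ (Km ρ).Φ3 (b - wt j) :=
  ⟨hc.1.kP ρ j, hc.2.1.kP ρ j, hc.2.2.kP ρ j⟩

omit [FiniteDimensional ℂ M] in
theorem kP_ext {l l' : Ix M → RH} (h : ∀ j, kP j l = kP j l') : l = l' :=
  funext fun t => comp_ext fun j => phi_injective (congrFun (h j) t)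

omit [FiniteDimensional ℂ M] in
theorem k3_ext {c c' : (Ix M → RH) × (Ix M → RH) × (Ix M → RH)}
    (h : ∀ j, k3 (kP j) c = k3 (kP j) c') : c = c' :=
  Prod.ext (kP_ext fun j => congrArg Prod.fst (h j))
    (Prod.ext (kP_ext fun j => congrArg (·.2.1) (h j)) (kP_ext fun j => congrArg (·.2.2) (h j)))

theorem exists_kP (b : ℤ) (c : J → Ix M → P) (hc : ∀ j, c j ∈ (Km ρ).Φ (b - wt j)) :
    ∃ l, InL b l ∧ ∀ j, kP j l = c j := by
  have := fun t => exists_comp b (fun j => psi (c j t)) fun j => psi_mem ((mem_Km ρ).1 (hc j) t)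
  choose l hl hl' using this
  exact ⟨l, hl, fun j => funext fun t => by rw [kP_apply, hl', phi_psi]⟩

theorem exists_k3 (b : ℤ) (c : J → (Ix M → P) × (Ix M → P) × (Ix M → P))
    (hc : ∀ j, c j ∈ (Km ρ).Φ3 (b - wt j)) :
    ∃ l, InL3 b l ∧ ∀ j, k3 (kP j) l = c j := by
  obtain ⟨l1, h1, h1'⟩ := exists_kP ρ b (fun j => (c j).1) fun j => (hc j).1
  obtain ⟨l2, h2, h2'⟩ := exists_kP ρ b (fun j => (c j).2.1) fun j => (hc j).2.1
  obtain ⟨l3, h3, h3'⟩ := exists_kP ρ b (fun j => (c j).2.2) fun j => (hc j).2.2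
  exact ⟨(l1, l2, l3), ⟨h1, h2, h3⟩, fun j => Prod.ext (h1' j) (Prod.ext (h2' j) (h3' j))⟩

theorem res1 (b : ℤ) (c : (Ix M → RH) × (Ix M → RH) × (Ix M → RH)) (hc : InL3 b c)
    (h0 : (TR ρ).d1 c = 0) : ∃ c', InL3 (b - 1) c' ∧ (TR ρ).d2 c' = c := by
  have := fun j => (Km ρ).exact1 _ _ (hc.kP ρ j) (by rw [← (inter ρ j).d1, h0, map_zero])
  choose c' hc' hc'' using this
  obtain ⟨l, hl, hl'⟩ := exists_k3 ρ (b - 1) c' fun j => by
    have := hc' j
    rwa [sub_right_comm] at this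
  exact ⟨l, hl, k3_ext fun j => by rw [(inter ρ j).d2, hl', hc'']⟩

theorem res2 (b : ℤ) (c : (Ix M → RH) × (Ix M → RH) × (Ix M → RH)) (hc : InL3 b c)
    (h0 : (TR ρ).d2 c = 0) : ∃ c', InL (b - 1) c' ∧ (TR ρ).d3 c' = c := by
  have := fun j => (Km ρ).exact2 _ _ (hc.kP ρ j) (by rw [← (inter ρ j).d2, h0]; simp [k3])
  choose c' hc' hc'' using this
  obtain ⟨l, hl, hl'⟩ := exists_kP ρ (b - 1) c' fun j => by
    have := hc' j
    rwa [sub_right_comm] at this
  exact ⟨l, hl, k3_ext fun j => by rw [(inter ρ j).d3, hl', hc'']⟩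

theorem res3 (b : ℤ) (l : Ix M → RH) (hl : InL b l) (h0 : (TR ρ).d3 l = 0) : l = 0 :=
  kP_ext fun j => by
    rw [map_zero]
    exact (Km ρ).exact3 _ _ (hl.kP ρ j) (by rw [← (inter ρ j).d3, h0]; simp [k3])

/-- augmentation on the polynomial model -/
noncomputable def augP : (Ix M → P) →ₗ[ℂ] M where
  toFun p := ∑ t, ρ (psi (p t)) (bs M t)
  map_add' p q := by simp [Finset.sum_add_distrib]
  map_smul' c p := by simp [Finset.smul_sum]

theorem augP_apply (p : Ix M → P) : augP ρ p = ∑ t, ρ (psi (p t)) (bs M t) := rfl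

theorem augP_aux (R : P →ₗ[ℂ] P) (x : U) (hR : ∀ p, psi (R p) = psi p * x) (v : Ix M → P) :
    augP ρ (fun s => R (v s) - ∑ t, rmat ρ x s t • v t) = 0 := by
  simp only [augP_apply, map_sub, map_sum, map_smul, hR, map_mul, LinearMap.sub_apply,
    Finset.sum_sub_distrib, Module.End.mul_apply, LinearMap.sum_apply, LinearMap.smul_apply]
  rw [Finset.sum_comm, sub_eq_zero]
  refine Finset.sum_congr rfl fun t _ => ?_
  rw [← sum_rmat, map_sum]
  simp only [map_smul]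

theorem augP_d1 (c : (Ix M → P) × (Ix M → P) × (Ix M → P)) : augP ρ ((TPm ρ).d1 c) = 0 := by
  rw [Triple.d1_apply, map_add, map_add]
  have h1 : augP ρ ((TPm ρ).E c.1) = 0 := augP_aux ρ Re e psi_Re _
  have h2 : augP ρ ((TPm ρ).F c.2.1) = 0 := augP_aux ρ Rf f psi_Rf _
  have h3 : augP ρ ((TPm ρ).H c.2.2) = 0 := augP_aux ρ Rh h psi_Rh _
  rw [h1, h2, h3]; simp

theorem psi_one : psi 1 = 1 := by rw [← phi_one, psi_phi]

theorem augP_inj (p : Ix M → P) (hp : p ∈ (Km ρ).Φ 0) (h0 : augP ρ p = 0) : p = 0 := by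
  have := fun t => degF_zero ((mem_Km ρ).1 hp t)
  choose c hc using this
  simp only [augP_apply, hc, map_smul, psi_one, map_one, LinearMap.smul_apply,
    Module.End.one_apply] at h0
  have := Fintype.linearIndependent_iff.1 (bs M).linearIndependent c h0
  ext1 t
  simp [hc, this]

/-- the augmentation components -/
noncomputable def aug (j : J) : (Ix M → RH) →ₗ[ℂ] M where
  toFun l := ∑ t, ρ (comp j (l t)) (bs M t)
  map_add' p q := by simp [Finset.sum_add_distrib]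
  map_smul' c p := by simp [Finset.smul_sum]

theorem aug_apply (j : J) (l : Ix M → RH) : aug ρ j l = ∑ t, ρ (comp j (l t)) (bs M t) := rfl

theorem aug_eq (j : J) (l : Ix M → RH) : aug ρ j l = augP ρ (kP j l) := by
  simp [aug_apply, augP_apply, kP_apply, psi_phi]

theorem aug_d1 (j : J) (c : (Ix M → RH) × (Ix M → RH) × (Ix M → RH)) :
    aug ρ j ((TR ρ).d1 c) = 0 := by
  rw [aug_eq, (inter ρ j).d1, augP_d1]

theorem res0 (b : ℤ) (l : Ix M → RH) (hl : InL b l) (h0 : ∀ j, aug ρ j l = 0) :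
    ∃ c, InL3 (b - 1) c ∧ (TR ρ).d1 c = l := by
  have := fun j => (Km ρ).exact0 _ _ (hl.kP ρ j)
  choose c' hc' hc'' using this
  obtain ⟨c, hc, hc1⟩ := exists_k3 ρ (b - 1) c' fun j => by
    have := hc' j
    rwa [sub_right_comm] at this
  refine ⟨c, hc, kP_ext fun j => ?_⟩
  rw [(inter ρ j).d1, hc1]
  have := augP_inj ρ _ (hc'' j) (by rw [map_sub, augP_d1, ← aug_eq, h0, sub_zero])
  exact (sub_eq_zero.1 this).symm

omit [FiniteDimensional ℂ M] in
theorem InL.add {b : ℤ} {l l' : Ix M → RH} (hl : InL b l) (hl' : InL b l') : InL b (l + l') :=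
  fun t => Submodule.add_mem _ (hl t) (hl' t)

omit [FiniteDimensional ℂ M] in
theorem InL.sub {b : ℤ} {l l' : Ix M → RH} (hl : InL b l) (hl' : InL b l') : InL b (l - l') :=
  fun t => Submodule.sub_mem _ (hl t) (hl' t)

omit [FiniteDimensional ℂ M] in
theorem InL.neg {b : ℤ} {l : Ix M → RH} (hl : InL b l) : InL b (-l) :=
  fun t => Submodule.neg_mem _ (hl t)

omit [FiniteDimensional ℂ M] in
theorem InL.succ {b : ℤ} {l : Ix M → RH} (hl : InL b l) : InL (b + 1) l :=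
  fun t => GR_mono (by omega) (hl t)

theorem InL.aux {b : ℤ} {l : Ix M → RH} (hl : InL b l) {x : U} (hx : x ∈ F 1) :
    InL (b + 1) fun s => l s * iU x - ∑ t, rmat ρ x s t • l t := fun s =>
  Submodule.sub_mem _ (𝒢R.mul_mem (hl s) (iU_mem hx))
    (Submodule.sum_mem _ fun t _ => Submodule.smul_mem _ _ (hl.succ t))

theorem InL.E {b : ℤ} {l : Ix M → RH} (hl : InL b l) : InL (b + 1) ((TR ρ).E l) := hl.aux ρ e_mem
theorem InL.F {b : ℤ} {l : Ix M → RH} (hl : InL b l) : InL (b + 1) ((TR ρ).F l) := hl.aux ρ f_mem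
theorem InL.H {b : ℤ} {l : Ix M → RH} (hl : InL b l) : InL (b + 1) ((TR ρ).H l) := hl.aux ρ h_mem

theorem InL3.d1 {b : ℤ} {c : (Ix M → RH) × (Ix M → RH) × (Ix M → RH)} (hc : InL3 b c) :
    InL (b + 1) ((TR ρ).d1 c) :=
  ((hc.1.E ρ).add (hc.2.1.F ρ)).add (hc.2.2.H ρ)

theorem InL3.d2 {b : ℤ} {c : (Ix M → RH) × (Ix M → RH) × (Ix M → RH)} (hc : InL3 b c) :
    InL3 (b + 1) ((TR ρ).d2 c) :=
  ⟨((hc.1.F ρ).add (hc.2.1.add hc.2.1).succ).sub (hc.2.1.H ρ),
    ((hc.1.E ρ).neg.sub (hc.2.2.H ρ)).sub (hc.2.2.add hc.2.2).succ,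
    (hc.1.succ.add (hc.2.1.E ρ)).add (hc.2.2.F ρ)⟩

theorem InL.d3 {b : ℤ} {l : Ix M → RH} (hl : InL b l) : InL3 (b + 1) ((TR ρ).d3 l) :=
  ⟨hl.H ρ, hl.F ρ, (hl.E ρ).neg⟩

end Crest.Agent.FinDim
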