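import Mathlib
import Crest.Agent.FinDim.Res

/-! The modules `X_M` and the vertexwise lemmas relating `X_M` to `X_{M'}`. -/

set_option autoImplicit false

namespace Crest.Agent.FinDim

open Polynomial U

/-- evaluation `z ↦ c` -/
noncomputable def ev (c : ℂ) : U[X] →ₐ[ℂ] U :=
  eval₂AlgHom (AlgHom.id ℂ U) (algebraMap ℂ U c) fun u => (Algebra.commutes c u).symm

theorem ev_C (c : ℂ) (u : U) : ev c (C u) = u := by simp [ev]
theorem ev_X (c : ℂ) : ev c X = algebraMap ℂ U c := by simp [ev]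

theorem ev_mul_X (c : ℂ) (p : U[X]) : ev c (p * X) = c • ev c p := by
  rw [map_mul, ev_X, ← Algebra.commutes, Algebra.smul_def]

theorem X_pow_div (c : ℂ) (d : ℕ) :
    ∃ g ∈ FZ ((d : ℤ) - 1), (X : U[X]) ^ d - c ^ d • (1 : U[X]) = g * X - c • g := by
  induction d with
  | zero => exact ⟨0, Submodule.zero_mem _, by simp⟩
  | succ d ih =>
    obtain ⟨g, hg, h⟩ := ih
    have hX : (X : U[X]) ^ d ∈ FZ d := by
      rw [← monomial_one_right_eq_X_pow]
      exact monomial_mem_FZ (by simpa using one_mem_F)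
    refine ⟨X ^ d + c • g, Submodule.add_mem _ (by simpa using hX)
      (Submodule.smul_mem _ _ (FZ_mono (by push_cast; omega) hg)), ?_⟩
    rw [add_mul, smul_mul_assoc, ← pow_succ, eq_add_of_sub_eq h.symm]
    simp only [smul_add, smul_sub, smul_smul, pow_succ']
    abel

theorem FZ_div (c : ℂ) {a : ℤ} {p : U[X]} (hp : p ∈ FZ a) :
    ∃ q ∈ FZ (a - 1), p - C (ev c p) = q * X - c • q := by
  let T : U[X] →ₗ[ℂ] U[X] :=
    { toFun := fun p => p - C (ev c p)
      map_add' := fun p q => by simp only [map_add]; abel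
      map_smul' := fun x p => by simp [smul_sub, smul_C] }
  let S : U[X] →ₗ[ℂ] U[X] := LinearMap.mulRight ℂ X - c • LinearMap.id
  have : T p ∈ (FZ (a - 1)).map S := by
    refine FZ_ind T _ a (fun d u hu => ?_) hp
    obtain ⟨g, hg, h⟩ := X_pow_div c d
    refine ⟨C u * g, ?_, ?_⟩
    · have := FZ_mul (C_mem_FZ hu) hg
      rwa [show a - d + (d - 1) = a - 1 by ring] at this
    · change C u * g * X - c • (C u * g) = monomial d u - C (ev c (monomial d u))
      rw [mul_assoc, ← mul_smul_comm, ← mul_sub, ← h, ← C_mul_X_pow_eq_monomial, map_mul, map_pow,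
        ev_C, ev_X, ← map_pow, ← Algebra.commutes, ← Algebra.smul_def, mul_sub, mul_smul_comm,
        mul_one, smul_C]
  obtain ⟨q, hq, hq'⟩ := this
  exact ⟨q, hq, hq'.symm⟩

section Mod

variable {M : Type} [AddCommGroup M] [Module ℂ M]

/-- `M` as a module over `RH`, with `z` acting by `c` and `N` by zero -/
def Mod (_ρ : U →ₐ[ℂ] Module.End ℂ M) (_c : ℂ) : Type := M

variable (ρ : U →ₐ[ℂ] Module.End ℂ M) (c : ℂ)

instance : AddCommGroup (Mod ρ c) := inferInstanceAs (AddCommGroup M)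

noncomputable instance : Module RH (Mod ρ c) :=
  Module.compHom M (ρ.comp ((ev c).comp (TrivSqZeroExt.fstHom ℂ U[X] NB))).toRingHom

theorem Mod.smul_def (r : RH) (m : Mod ρ c) : r • m = ρ (ev c r.fst) m := rfl

/-- pairing `N × M → V ⊗ M` -/
noncomputable def star' (ν : Fin 2 → U) (m : M) : Fin 2 → M := fun i => ρ (ν i) m

theorem star'_mv (a : Mat) (ν : Fin 2 → U) (m : M) :
    star' ρ (mv a ν) m = matAct ρ a (star' ρ ν m) := by
  ext i
  simp [star', mv_apply, matAct_apply]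

theorem star'_add (ν ν' : Fin 2 → U) (m : M) :
    star' ρ (ν + ν') m = star' ρ ν m + star' ρ ν' m := by
  ext i
  simp [star']

theorem star'_sum {κ : Type} [Fintype κ] (ν : Fin 2 → U) (m : κ → M) :
    star' ρ ν (∑ t, m t) = ∑ t, star' ρ ν (m t) := by
  ext i
  simp [star', Finset.sum_apply]

theorem star'_smul (ν : Fin 2 → U) (x : ℂ) (m : M) :
    star' ρ ν (x • m) = x • star' ρ ν m := by
  ext i
  simp [star']

variable {M' : Type} [AddCommGroup M'] [Module ℂ M']

/-- `M'` is the `c`-eigenspace of the split Casimir on `V ⊗ M` -/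
structure Step (ρ' : U →ₐ[ℂ] Module.End ℂ M') (π : (Fin 2 → M) →ₗ[ℂ] M') : Prop where
  del : ∀ u w, π (matAct ρ (Del u) w) = ρ' u (π w)
  z : ∀ w, π (matAct ρ Z w) = c • π w
  ker : ∀ w, π w = 0 → ∃ w', w = matAct ρ Z w' - c • w'
  inj : ∀ w, matAct ρ Z w = c • w → π w = 0 → w = 0
  surj : ∀ m', ∃ w, matAct ρ Z w = c • w ∧ π w = m'

variable {ρ c} {ρ' : U →ₐ[ℂ] Module.End ℂ M'} {π : (Fin 2 → M) →ₗ[ℂ] M'}

theorem Step.lam (hS : Step ρ c ρ' π) (p : U[X]) (w : Fin 2 → M) :
    π (matAct ρ (lam p) w) = ρ' (ev (c - 1) p) (π w) := by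
  induction p using Polynomial.induction_on generalizing w with
  | C u => rw [lam_C, ev_C, hS.del]
  | add p q hp hq => simp [hp, hq]
  | monomial n u ih =>
    rw [pow_succ, ← mul_assoc, map_mul, lam_X, map_mul, Module.End.mul_apply, ih, ev_mul_X,
      map_sub, map_one, LinearMap.sub_apply, map_sub, hS.z, Module.End.one_apply, map_smul,
      LinearMap.smul_apply, ← map_smul, sub_smul, one_smul]
    simp only [map_smul, map_sub]

theorem Step.rr (hS : Step ρ c ρ' π) (p : U[X]) (ν : Fin 2 → U) (m : M) :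
    π (star' ρ ((rr p).unop ν) m) = π (star' ρ ν (ρ (ev c p) m)) := by
  induction p using Polynomial.induction_on with
  | C u =>
    rw [rr_C, ev_C]
    congr 1
    ext i
    simp [star', rm_apply]
  | add p q hp hq =>
    simp only [map_add, MulOpposite.unop_add, LinearMap.add_apply, star'_add, hp, hq]
    rw [← map_add]
    congr 1
    ext i
    simp [star']
  | monomial n u ih =>
    rw [pow_succ, ← mul_assoc, map_mul, rr_X, MulOpposite.unop_mul, MulOpposite.unop_op,
      Module.End.mul_apply, star'_mv, hS.z, ih, ev_mul_X, map_smul, LinearMap.smul_apply,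
      star'_smul, map_smul]

end Mod

section vertex

variable {M : Type} [AddCommGroup M] [Module ℂ M] [FiniteDimensional ℂ M]
  (ρ : U →ₐ[ℂ] Module.End ℂ M) (c : ℂ)

/-- augmentation to `M` -/
noncomputable def beta : (Ix M → RH) →ₗ[RH] Mod ρ c :=
  Fintype.linearCombination RH fun t => (bs M t : Mod ρ c)

theorem beta_apply (l : Ix M → RH) :
    beta ρ c l = (∑ t, ρ (ev c (l t).fst) (bs M t) : M) := rfl

/-- the operator `z - c` -/
noncomputable def yz (M : Type) [AddCommGroup M] [Module ℂ M] (c : ℂ) :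
    (Ix M → RH) →ₗ[RH] (Ix M → RH) :=
  (rmul (zz - c • 1)).compLeft (Ix M)

omit [FiniteDimensional ℂ M] in
theorem yz_apply (l : Ix M → RH) (t : Ix M) : yz M c l t = l t * zz - c • l t := by
  change l t * (zz - c • 1) = _
  rw [mul_sub, mul_smul_comm, mul_one]

omit [FiniteDimensional ℂ M] in
theorem InL.yz {b : ℤ} {l : Ix M → RH} (hl : InL b l) : InL (b + 1) (yz M c l) := fun t => by
  rw [yz_apply]
  exact Submodule.sub_mem _ (𝒢R.mul_mem (hl t) zz_mem) (Submodule.smul_mem _ _ (hl.succ t))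

/-- the `N`-part of the augmentation -/
noncomputable def ww : (Ix M → RH) →ₗ[ℂ] (Fin 2 → M) :=
  LinearMap.pi fun i => aug ρ (.inr i)

theorem ww_apply (l : Ix M → RH) : ww ρ l = ∑ t, star' ρ (l t).snd (bs M t) := by
  ext i
  simp [ww, aug_apply, star', comp_inr, Finset.sum_apply]

theorem ww_yz (l : Ix M → RH) : ww ρ (yz M c l) = matAct ρ Z (ww ρ l) - c • ww ρ l := by
  have : yz M c l = (fun t => l t * zz) - c • l := funext fun t => yz_apply c l t
  rw [this, map_sub, map_smul, ww_apply, ww_apply, map_sum]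
  simp only [snd_mul_zz, star'_mv]

theorem beta_yz (l : Ix M → RH) : beta ρ c (yz M c l) = 0 := by
  rw [beta_apply]
  refine Finset.sum_eq_zero fun t _ => ?_
  rw [yz_apply, TrivSqZeroExt.fst_sub, fst_mul_zz, TrivSqZeroExt.fst_smul, map_sub, ev_mul_X,
    map_smul, sub_self, map_zero, LinearMap.zero_apply]
  rfl

theorem aug_yz_succ (d : ℕ) (l : Ix M → RH) :
    aug ρ (.inl (d + 1)) (yz M c l) = aug ρ (.inl d) l - c • aug ρ (.inl (d + 1)) l := by
  have : yz M c l = (fun t => l t * zz) - c • l := funext fun t => yz_apply c l t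
  rw [this, map_sub, map_smul]
  simp only [aug_apply, comp_inl, fst_mul_zz, coeff_mul_X]

theorem beta_aux (x : U) (v : Ix M → RH) :
    beta ρ c (fun s => v s * iU x - ∑ t, rmat ρ x s t • v t) = 0 := by
  rw [beta_apply]
  simp only [TrivSqZeroExt.fst_sub, TrivSqZeroExt.fst_sum, TrivSqZeroExt.fst_smul, RH.fst_mul, iU,
    TrivSqZeroExt.fst_inl, map_sub, map_sum, map_smul, map_mul, ev_C, LinearMap.sub_apply,
    Finset.sum_sub_distrib, Module.End.mul_apply, LinearMap.sum_apply, LinearMap.smul_apply]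
  rw [Finset.sum_comm]
  refine sub_eq_zero.2 (Finset.sum_congr rfl fun t _ => ?_)
  rw [← sum_rmat, map_sum]
  simp only [map_smul]

theorem beta_d1 (k : (Ix M → RH) × (Ix M → RH) × (Ix M → RH)) : beta ρ c ((TR ρ).d1 k) = 0 := by
  rw [Triple.d1_apply, map_add, map_add]
  have h1 : beta ρ c ((TR ρ).E k.1) = 0 := beta_aux ρ c e _
  have h2 : beta ρ c ((TR ρ).F k.2.1) = 0 := beta_aux ρ c f _
  have h3 : beta ρ c ((TR ρ).H k.2.2) = 0 := beta_aux ρ c h _
  rw [h1, h2, h3]; simp

theorem ww_d1 (k : (Ix M → RH) × (Ix M → RH) × (Ix M → RH)) : ww ρ ((TR ρ).d1 k) = 0 :=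
  funext fun i => aug_d1 ρ (.inr i) k

theorem beta_surj (m : Mod ρ c) : ∃ l, InL 0 l ∧ beta ρ c l = m := by
  refine ⟨fun t => (bs M).repr m t • 1, fun t => Submodule.smul_mem _ _ 𝒢R.one_mem, ?_⟩
  rw [beta_apply]
  simp only [TrivSqZeroExt.fst_smul, TrivSqZeroExt.fst_one, map_smul, map_one,
    LinearMap.smul_apply, Module.End.one_apply]
  exact (bs M).sum_repr m

/-- lifting an element of `V ⊗ M` -/
noncomputable def liftW (w : Fin 2 → M) : Ix M → RH :=
  fun t => TrivSqZeroExt.inr (fun i => (bs M).repr (w i) t • (1 : U) : NB)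

theorem liftW_mem (w : Fin 2 → M) : InL (-1) (liftW w) := fun _ =>
  ⟨Submodule.zero_mem _, fun _ => Submodule.smul_mem _ _ one_mem_F⟩

theorem liftW_fst (w : Fin 2 → M) (t : Ix M) : (liftW w t).fst = 0 := rfl

theorem ww_liftW (w : Fin 2 → M) : ww ρ (liftW w) = w := by
  ext i
  change ∑ t, ρ ((bs M).repr (w i) t • (1 : U)) (bs M t) = w i
  simp only [map_smul, map_one, LinearMap.smul_apply, Module.End.one_apply]
  exact (bs M).sum_repr _

theorem beta_liftW (w : Fin 2 → M) : beta ρ c (liftW w) = 0 := by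
  rw [beta_apply]
  simp only [liftW_fst, map_zero, LinearMap.zero_apply, Finset.sum_const_zero]
  rfl

omit [FiniteDimensional ℂ M] in
theorem InL.mono {a b : ℤ} {l : Ix M → RH} (hl : InL a l) (h : a ≤ b) : InL b l :=
  fun t => GR_mono h (hl t)

theorem aug_inl_of_fst (l : Ix M → RH) (hl : ∀ t, (l t).fst = 0) (d : ℕ) :
    aug ρ (.inl d) l = 0 := by
  simp [aug_apply, comp_inl, hl]

theorem aug_zero_of (l : Ix M → RH) (h1 : ∀ d, aug ρ (.inl d) l = 0) (h2 : ww ρ l = 0) :
    ∀ j, aug ρ j l = 0 := by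
  rintro (d | i)
  · exact h1 d
  · exact congrFun h2 i

/-- if the `U`-part of the augmentation vanishes then so does `beta` -/
theorem beta_eq_zero {b : ℤ} (l : Ix M → RH) (hl : InL b l) (h : ∀ d, aug ρ (.inl d) l = 0) :
    beta ρ c l = 0 := by
  let l' : Ix M → RH := fun t => TrivSqZeroExt.inl (l t).fst
  have hl' : InL b l' := fun t => ⟨(hl t).1, fun _ => Submodule.zero_mem _⟩
  obtain ⟨k, -, hk⟩ := res0 ρ b l' hl' (aug_zero_of ρ l' h (by
    rw [ww_apply]
    refine Finset.sum_eq_zero fun t _ => ?_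
    ext i
    change ρ 0 _ = 0
    simp))
  have : beta ρ c l' = beta ρ c l := rfl
  rw [← this, ← hk, beta_d1]

theorem aug_inl_of_yz {b : ℤ} (l : Ix M → RH) (hl : InL b l)
    (h : ∀ d, aug ρ (.inl d) (yz M c l) = 0) (d : ℕ) : aug ρ (.inl d) l = 0 := by
  have h1 : ∀ d : ℕ, b < d → aug ρ (.inl d) l = 0 := fun d hd => by
    rw [aug_apply]
    refine Finset.sum_eq_zero fun t _ => ?_
    rw [comp_inl, F_neg (n := b - d) (by omega) ((hl t).1 d)]
    simp
  have h2 : ∀ n d : ℕ, b < d + n → aug ρ (.inl d) l = 0 := by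
    intro n
    induction n with
    | zero => intro d hd; exact h1 d (by simpa using hd)
    | succ n ih =>
      intro d hd
      have := h (d + 1)
      rw [aug_yz_succ, ih (d + 1) (by push_cast at hd ⊢; omega), smul_zero, sub_zero] at this
      exact this
  exact h2 (b.toNat + 1) d (by push_cast; omega)

variable {M' : Type} [AddCommGroup M'] [Module ℂ M']
  {ρ c} {ρ' : U →ₐ[ℂ] Module.End ℂ M'} {π : (Fin 2 → M) →ₗ[ℂ] M'}

theorem Step.smul (hS : Step ρ c ρ' π) (r : RH) (l : Ix M → RH) (hl : beta ρ c l = 0) :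
    π (ww ρ (r • l)) = ρ' (ev (c - 1) r.fst) (π (ww ρ l)) := by
  rw [ww_apply, ww_apply, ← hS.lam, map_sum, map_sum, map_sum]
  simp only [Pi.smul_apply, smul_eq_mul, RH.snd_mul, star'_add, map_add, star'_mv, hS.rr,
    Finset.sum_add_distrib]
  rw [← map_sum π (fun t => star' ρ r.snd _), ← star'_sum, ← beta_apply, hl]
  have : star' ρ r.snd (0 : Mod ρ c) = 0 := by
    ext i
    exact map_zero (ρ _)
  rw [this, map_zero, add_zero]

theorem Step.F4 (hS : Step ρ c ρ' π) {b : ℤ} (l : Ix M → RH) (hl : InL b l)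
    (h : ∀ j, aug ρ j (yz M c l) = 0) (h0 : π (ww ρ l) = 0) : ∀ j, aug ρ j l = 0 := by
  refine aug_zero_of ρ l (aug_inl_of_yz ρ c l hl fun d => h _) (hS.inj _ ?_ h0)
  rw [← sub_eq_zero, ← ww_yz]
  exact funext fun i => h (.inr i)

theorem Step.F5 (hS : Step ρ c ρ' π) {b : ℤ} (hb : 0 ≤ b) (l : Ix M → RH) (hl : InL b l)
    (h1 : beta ρ c l = 0) (h2 : π (ww ρ l) = 0) :
    ∃ l' k, InL (b - 1) l' ∧ InL3 (b - 1) k ∧ yz M c l' + (TR ρ).d1 k = l := by
  have := fun t => FZ_div c (hl t).1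
  choose q hq hq' using this
  obtain ⟨w', hw'⟩ := hS.ker _ h2
  let l1 : Ix M → RH := fun t => TrivSqZeroExt.inl (q t)
  have hl1 : InL (b - 1) l1 := fun t => ⟨hq t, fun _ => Submodule.zero_mem _⟩
  have hl2 : InL (b - 1) (l1 + liftW w') := hl1.add ((liftW_mem w').mono (by omega))
  have hw1 : ww ρ l1 = 0 := by
    rw [ww_apply]
    refine Finset.sum_eq_zero fun t _ => ?_
    ext i
    change ρ 0 _ = 0
    simp
  have hfst : ∀ t, ((l - yz M c (l1 + liftW w')) t).fst = C (ev c (l t).fst) := fun t => by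
    rw [Pi.sub_apply, yz_apply, TrivSqZeroExt.fst_sub, TrivSqZeroExt.fst_sub, fst_mul_zz,
      TrivSqZeroExt.fst_smul, Pi.add_apply, TrivSqZeroExt.fst_add, liftW_fst, add_zero]
    change _ - (q t * X - c • q t) = _
    rw [← hq', sub_sub_cancel]
  obtain ⟨k, hk, hk'⟩ := res0 ρ b (l - yz M c (l1 + liftW w'))
    (hl.sub (by simpa using hl2.yz c)) (aug_zero_of ρ _ (fun d => by
      rw [aug_apply]
      simp only [comp_inl, hfst, coeff_C]
      split_ifs
      · exact h1
      · simp) (by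
      rw [map_sub, ww_yz, map_add, hw1, zero_add, ww_liftW, ← hw', sub_self]))
  exact ⟨_, k, hl2, hk, by rw [hk']; abel⟩

end vertex

end Crest.Agent.FinDim
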