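import Mathlib
import Crest.Agent.FinDim.Step

/-! Short exact sequences over the Beilinson algebra and the growth of projective dimension. -/

set_option autoImplicit false

namespace Crest.Agent.FinDim

open Polynomial U

/-- the finite-dimensional algebra -/
abbrev AA : Type := Beil 𝒢R

theorem ses_comap {A Q1 Q0 X : Type} [Ring A] [AddCommGroup Q1] [Module A Q1] [AddCommGroup Q0]
    [Module A Q0] [AddCommGroup X] [Module A X] (K : Submodule A Q0) (y : Q1 →ₗ[A] Q0)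
    (W : Submodule A Q0) (γ : W →ₗ[A] X)
    (h : ∀ x, (∃ hx : x ∈ W, γ ⟨x, hx⟩ = 0) ↔ ∃ l, ∃ k ∈ K, y l + k = x) :
    ∃ (f : K.comap y →ₗ[A] Q1 × K) (g : Q1 × K →ₗ[A] LinearMap.ker γ), SES f g := by
  have h1 : ∀ x : Q1 × K, ∃ hx : y x.1 + x.2.1 ∈ W, γ ⟨_, hx⟩ = 0 := fun x =>
    (h _).2 ⟨x.1, x.2.1, x.2.2, rfl⟩
  refine ⟨LinearMap.prod (K.comap y).subtype
    (- LinearMap.codRestrict K (y ∘ₗ (K.comap y).subtype) fun v => v.2),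
    LinearMap.codRestrict _ (LinearMap.codRestrict W (LinearMap.coprod y K.subtype)
      fun x => (h1 x).1) fun x => (h1 x).2,
    fun v w h => Subtype.ext (congrArg Prod.fst h), fun x => ⟨fun hx => ?_, ?_⟩, fun x => ?_⟩
  · have h2 : y x.1 + x.2.1 = 0 := congrArg (fun z => z.1.1) hx
    have h3 : y x.1 = - x.2.1 := eq_neg_of_add_eq_zero_left h2
    refine ⟨⟨x.1, ?_⟩, Prod.ext rfl (Subtype.ext ?_)⟩
    · change y x.1 ∈ K
      rw [h3]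
      exact Submodule.neg_mem _ x.2.2
    · change - y x.1 = x.2.1
      rw [h3, neg_neg]
  · rintro ⟨v, rfl⟩
    refine Subtype.ext (Subtype.ext ?_)
    change y v.1 + - y v.1 = 0
    rw [add_neg_cancel]
  · obtain ⟨l, k, hk, hx⟩ := (h x.1.1).1 ⟨x.1.2, x.2⟩
    exact ⟨(l, ⟨k, hk⟩), Subtype.ext (Subtype.ext hx)⟩

section level

variable (M : Type) [AddCommGroup M] [Module ℂ M]

/-- shifted filtration on `L` -/
noncomputable def ΦL (a : ℤ) : MFilt 𝒢R (Ix M → RH) := (MFilt.pi 𝒢R (Ix M)).shift a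

/-- shifted filtration on `L³` -/
noncomputable def ΦT (a : ℤ) : MFilt 𝒢R ((Ix M → RH) × (Ix M → RH) × (Ix M → RH)) :=
  (ΦL M a).prod ((ΦL M a).prod (ΦL M a))

variable {M}

theorem mem_ΦL {a b : ℤ} {l : Ix M → RH} : l ∈ (ΦL M a).F b ↔ InL (b - a) l := MFilt.mem_pi

theorem mem_ΦT {a b : ℤ} {c : (Ix M → RH) × (Ix M → RH) × (Ix M → RH)} :
    c ∈ (ΦT M a).F b ↔ InL3 (b - a) c :=
  ⟨fun h => ⟨mem_ΦL.1 h.1, mem_ΦL.1 h.2.1, mem_ΦL.1 h.2.2⟩,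
    fun h => ⟨mem_ΦL.2 h.1, mem_ΦL.2 h.2.1, mem_ΦL.2 h.2.2⟩⟩

variable (M)

theorem free_ΦL (a : ℤ) (h0 : 0 ≤ a) (h4 : a ≤ 4) :
    ∃ j : Fin 5, (j : ℤ) = a ∧ Nonempty (FreeAt (ΦL M a) j) ∧ Nonempty (FreeAt (ΦT M a) j) := by
  obtain ⟨n, rfl⟩ := Int.eq_ofNat_of_zero_le h0
  let j : Fin 5 := ⟨n, by omega⟩
  have h : FreeAt (ΦL M n) j := freeAtPi 𝒢R (Ix M) j
  exact ⟨j, rfl, ⟨h⟩, ⟨h.prod (h.prod h)⟩⟩

theorem proj_L (a : ℤ) (h0 : 0 ≤ a) (h4 : a ≤ 4) : Module.Projective AA (XM (ΦL M a)) := by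
  obtain ⟨j, -, ⟨h⟩, -⟩ := free_ΦL M a h0 h4
  exact h.projective

theorem proj_T (a : ℤ) (h0 : 0 ≤ a) (h4 : a ≤ 4) : Module.Projective AA (XM (ΦT M a)) := by
  obtain ⟨j, -, -, ⟨h⟩⟩ := free_ΦL M a h0 h4
  exact h.projective

theorem pd_L (a : ℤ) (h0 : 0 ≤ a) (h4 : a ≤ 4) {n : ℕ} (hn : 1 ≤ n) : PD AA (XM (ΦL M a)) n :=
  haveI := proj_L M a h0 h4
  PD.of_projective hn

theorem pd_T (a : ℤ) (h0 : 0 ≤ a) (h4 : a ≤ 4) {n : ℕ} (hn : 1 ≤ n) : PD AA (XM (ΦT M a)) n :=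
  haveI := proj_T M a h0 h4
  PD.of_projective hn

variable {M} [FiniteDimensional ℂ M] (ρ : U →ₐ[ℂ] Module.End ℂ M)

theorem shift_eq (i a : ℤ) : i - (a + 1) + 1 = i - a := by ring
theorem shift_eq' (i a : ℤ) : i - a - 1 = i - (a + 1) := by ring

/-- `d₁` -/
noncomputable def X1 (a : ℤ) : XM (ΦT M (a + 1)) →ₗ[AA] XM (ΦL M a) :=
  XMap _ _ (TR ρ).d1 fun _ _ hy => mem_ΦL.2 (shift_eq _ a ▸ (mem_ΦT.1 hy).d1 ρ)

theorem X1_apply (a : ℤ) (v : XM (ΦT M (a + 1))) (i : Fin 5) :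
    (X1 ρ a v).1 i = (TR ρ).d1 (v.1 i) := XMap_apply _ _ _ _ _ _

/-- `d₂` -/
noncomputable def X2 (a : ℤ) : XM (ΦT M (a + 1)) →ₗ[AA] XM (ΦT M a) :=
  XMap _ _ (TR ρ).d2 fun _ _ hy => mem_ΦT.2 (shift_eq _ a ▸ (mem_ΦT.1 hy).d2 ρ)

/-- `d₃` -/
noncomputable def X3 (a : ℤ) : XM (ΦL M (a + 1)) →ₗ[AA] XM (ΦT M a) :=
  XMap _ _ (TR ρ).d3 fun _ _ hy => mem_ΦT.2 (shift_eq _ a ▸ (mem_ΦL.1 hy).d3 ρ)

theorem ses3 (a : ℤ) : SES (X3 ρ (a + 1)) (X2 ρ a).rangeRestrict := by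
  refine ses_range (XMap_injective _ _ _ _ fun i y hy h => res3 ρ _ y (mem_ΦL.1 hy) h)
    (XMap_exact _ _ _ _ _ _ _ (TR ρ).d2_d3 fun i y hy h => ?_)
  obtain ⟨c, hc, hc'⟩ := res2 ρ _ y (mem_ΦT.1 hy) h
  exact ⟨c, mem_ΦL.2 (shift_eq' _ _ ▸ hc), hc'⟩

theorem ses2 (a : ℤ) :
    SES (LinearMap.range (X2 ρ (a + 1))).subtype (X1 ρ a).rangeRestrict := by
  refine ses_range' (XMap_exact _ _ _ _ _ _ _ (TR ρ).d1_d2 fun i y hy h => ?_)
  obtain ⟨c, hc, hc'⟩ := res1 ρ _ y (mem_ΦT.1 hy) h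
  exact ⟨c, mem_ΦT.2 (shift_eq' _ _ ▸ hc), hc'⟩

/-- the image of `d₁` -/
noncomputable abbrev KK (a : ℤ) : Submodule AA (XM (ΦL M a)) := LinearMap.range (X1 ρ a)

theorem pd_K (a : ℤ) (h0 : 0 ≤ a) (h1 : a ≤ 1) : PD AA (KK ρ a) 3 :=
  (ses2 ρ a).pd₃ ((ses3 ρ (a + 1)).pd₃ (pd_L M _ (by omega) (by omega) le_rfl)
    (pd_T M _ (by omega) (by omega) (by omega))) (pd_T M _ (by omega) (by omega) (by omega))

theorem mem_KK {a : ℤ} {v : XM (ΦL M a)} : v ∈ KK ρ a ↔ ∀ i j, aug ρ j (v.1 i) = 0 := by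
  refine (mem_range_XMap _ _ _ _ v).trans (forall_congr' fun i => ⟨?_, fun h => ?_⟩)
  · rintro ⟨y, -, hy⟩ j
    rw [← hy, aug_d1]
  · obtain ⟨c, hc, hc'⟩ := res0 ρ _ _ (mem_ΦL.1 (v.2 i)) h
    exact ⟨c, mem_ΦT.2 (shift_eq' _ _ ▸ hc), hc'⟩

variable (c : ℂ)

/-- the module `X_M` -/
abbrev XX {M : Type} [AddCommGroup M] [Module ℂ M] (ρ : U →ₐ[ℂ] Module.End ℂ M) (c : ℂ) : Type :=
  XM (MFilt.top 𝒢R (Mod ρ c))

/-- the surjection onto `X_M` -/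
noncomputable def Xb : XM (ΦL M 0) →ₗ[AA] XX ρ c :=
  XMap _ _ (beta ρ c) fun _ _ _ => trivial

theorem Xb_surj : Function.Surjective (Xb ρ c) :=
  XMap_surjective _ _ _ _ fun i m _ => by
    obtain ⟨l, hl, hl'⟩ := beta_surj ρ c m
    exact ⟨l, mem_ΦL.2 (hl.mono (by omega)), hl'⟩

theorem XX_finite : Module.Finite AA (XX ρ c) := by
  obtain ⟨j, -, ⟨h⟩, -⟩ := free_ΦL M 0 le_rfl (by norm_num)
  have := h.finite
  exact Module.Finite.of_surjective _ (Xb_surj ρ c)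

/-- `z - c` -/
noncomputable def Xy (M : Type) [AddCommGroup M] [Module ℂ M] (c : ℂ) :
    XM (ΦL M (0 + 1)) →ₗ[AA] XM (ΦL M 0) :=
  XMap _ _ (yz M c) fun _ _ hy => mem_ΦL.2 (shift_eq _ 0 ▸ (mem_ΦL.1 hy).yz c)

omit [FiniteDimensional ℂ M] in
theorem Xy_apply (v : XM (ΦL M (0 + 1))) (i : Fin 5) : (Xy M c v).1 i = yz M c (v.1 i) :=
  XMap_apply _ _ _ _ _ _

theorem aug_yz_zero (l : Ix M → RH) :
    aug ρ (.inl 0) (yz M c l) = - c • aug ρ (.inl 0) l := by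
  have : yz M c l = (fun t => l t * zz) - c • l := funext fun t => yz_apply c l t
  rw [this, map_sub, map_smul]
  simp only [aug_apply, comp_inl, fst_mul_zz, coeff_mul_X_zero, map_zero, LinearMap.zero_apply,
    Finset.sum_const_zero, zero_sub, neg_smul]

theorem aug_yz_of (l : Ix M → RH) (h : ∀ j, aug ρ j l = 0) : ∀ j, aug ρ j (yz M c l) = 0 := by
  refine aug_zero_of ρ _ ?_ ?_
  · rintro (_ | d)
    · rw [aug_yz_zero, h, smul_zero]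
    · rw [aug_yz_succ, h, h, smul_zero, sub_zero]
  · have : ww ρ l = 0 := funext fun i => h (.inr i)
    rw [ww_yz, this, map_zero, smul_zero, sub_zero]

/-- `W₀` -/
noncomputable abbrev W0 : Submodule AA (XM (ΦL M 0)) := LinearMap.ker (Xb ρ c)

theorem mem_W0 {v : XM (ΦL M 0)} : v ∈ W0 ρ c ↔ ∀ i, beta ρ c (v.1 i) = 0 :=
  ⟨fun h i => congrFun (congrArg Subtype.val h) i, fun h => XM.ext h⟩

/-- `V₁` -/
noncomputable abbrev V1 : Submodule AA (XM (ΦL M (0 + 1))) := (KK ρ 0).comap (Xy M c)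

theorem mem_V1 {v : XM (ΦL M (0 + 1))} :
    v ∈ V1 ρ c ↔ ∀ i j, aug ρ j (yz M c (v.1 i)) = 0 := by
  rw [Submodule.mem_comap, mem_KK]
  simp only [Xy_apply]

theorem V1_beta (v : XM (ΦL M (0 + 1))) (hv : v ∈ V1 ρ c) (i : Fin 5) : beta ρ c (v.1 i) = 0 :=
  beta_eq_zero ρ c _ (mem_ΦL.1 (v.2 i)) (aug_inl_of_yz ρ c _ (mem_ΦL.1 (v.2 i))
    fun d => (mem_V1 ρ c).1 hv i (.inl d))

theorem KK_le_V1 : KK ρ (0 + 1) ≤ V1 ρ c := fun _ hv =>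
  (mem_V1 ρ c).2 fun i => aug_yz_of ρ c _ ((mem_KK ρ).1 hv i)

variable {M' : Type} [AddCommGroup M'] [Module ℂ M']
  {ρ c} {ρ' : U →ₐ[ℂ] Module.End ℂ M'} {π : (Fin 2 → M) →ₗ[ℂ] M'}

/-- the map `γ` -/
noncomputable def Step.gam (hS : Step ρ c ρ' π) {a : ℤ} (W : Submodule AA (XM (ΦL M a)))
    (hW : ∀ v ∈ W, ∀ i, beta ρ c (v.1 i) = 0) : W →ₗ[AA] XX ρ' (c - 1) where
  toFun v := ⟨fun i => (π (ww ρ (v.1.1 i)) : M'), fun _ => trivial⟩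
  map_add' v w := XM.ext fun i => by
    change π (ww ρ (v.1.1 i + w.1.1 i)) = π (ww ρ (v.1.1 i)) + π (ww ρ (w.1.1 i))
    rw [map_add, map_add]
  map_smul' r v := XM.ext fun i => by
    change π (ww ρ (∑ j, r.1 i j • v.1.1 j)) =
      ∑ j, ρ' (ev (c - 1) (r.1 i j).fst) (π (ww ρ (v.1.1 j)))
    rw [map_sum, map_sum]
    exact Finset.sum_congr rfl fun j _ => hS.smul _ _ (hW _ v.2 j)

theorem Step.gam_eq_zero (hS : Step ρ c ρ' π) {a : ℤ} (W : Submodule AA (XM (ΦL M a)))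
    (hW : ∀ v ∈ W, ∀ i, beta ρ c (v.1 i) = 0) (v : W) :
    hS.gam W hW v = 0 ↔ ∀ i, π (ww ρ (v.1.1 i)) = 0 :=
  ⟨fun h i => congrFun (congrArg Subtype.val h) i, fun h => XM.ext h⟩

/-- `γ` on `W₀` -/
noncomputable def Step.gam0 (hS : Step ρ c ρ' π) : W0 ρ c →ₗ[AA] XX ρ' (c - 1) :=
  hS.gam (W0 ρ c) fun _ hv => (mem_W0 ρ c).1 hv

/-- `γ` on `V₁` -/
noncomputable def Step.gam1 (hS : Step ρ c ρ' π) : V1 ρ c →ₗ[AA] XX ρ' (c - 1) :=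
  hS.gam (V1 ρ c) (V1_beta ρ c)

theorem Step.gam0_surj (hS : Step ρ c ρ' π) : Function.Surjective hS.gam0 := by
  intro x
  choose w _ hw using fun i => hS.surj (x.1 i)
  refine ⟨⟨⟨fun i => liftW (w i), fun i => mem_ΦL.2 ((liftW_mem _).mono (by omega))⟩,
    (mem_W0 ρ c).2 fun i => beta_liftW ρ c _⟩, XM.ext fun i => ?_⟩
  change π (ww ρ (liftW (w i))) = _
  rw [ww_liftW, hw]

theorem Step.sesC (hS : Step ρ c ρ' π) : SES (Submodule.inclusion (KK_le_V1 ρ c)) hS.gam1 := by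
  refine ⟨Submodule.inclusion_injective _, fun v => ?_, fun x => ?_⟩
  · rw [Step.gam1, hS.gam_eq_zero]
    constructor
    · intro h
      exact ⟨⟨v.1, (mem_KK ρ).2 fun i => hS.F4 _ (mem_ΦL.1 (v.1.2 i))
        ((mem_V1 ρ c).1 v.2 i) (h i)⟩, rfl⟩
    · rintro ⟨k, rfl⟩ i
      have : ww ρ (k.1.1 i) = 0 := funext fun j => (mem_KK ρ).1 k.2 i (.inr j)
      exact (congrArg π this).trans (map_zero π)
  · choose w hw' hw using fun i => hS.surj (x.1 i)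
    refine ⟨⟨⟨fun i => liftW (w i), fun i => mem_ΦL.2 ((liftW_mem _).mono (by omega))⟩,
      (mem_V1 ρ c).2 fun i => ?_⟩, XM.ext fun i => ?_⟩
    · change ∀ j, aug ρ j (yz M c (liftW (w i))) = 0
      refine aug_zero_of ρ _ (aug_inl_of_fst ρ _ fun t => ?_) ?_
      · rw [yz_apply, TrivSqZeroExt.fst_sub, fst_mul_zz, TrivSqZeroExt.fst_smul, liftW_fst]
        simp
      · rw [ww_yz, ww_liftW, hw', sub_self]
    · change π (ww ρ (liftW (w i))) = _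
      rw [ww_liftW, hw]

theorem Step.sesD (hS : Step ρ c ρ' π) :
    ∃ (f : V1 ρ c →ₗ[AA] XM (ΦL M (0 + 1)) × KK ρ 0)
      (g : XM (ΦL M (0 + 1)) × KK ρ 0 →ₗ[AA] LinearMap.ker hS.gam0),
      SES (W₃ := LinearMap.ker hS.gam0) f g := by
  refine ses_comap (KK ρ 0) (Xy M c) (W0 ρ c) hS.gam0 fun x => ⟨?_, ?_⟩
  · rintro ⟨hx, hx'⟩
    have h2 := (hS.gam_eq_zero _ _ _).1 hx'
    have := fun i : Fin 5 => hS.F5 (b := (i : ℤ) - 0) (by omega) _ (mem_ΦL.1 (x.2 i))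
      ((mem_W0 ρ c).1 hx i) (h2 i)
    choose l k hl hk h using this
    exact ⟨⟨l, fun i => mem_ΦL.2 (shift_eq' _ _ ▸ hl i)⟩,
      X1 ρ 0 ⟨k, fun i => mem_ΦT.2 (shift_eq' _ _ ▸ hk i)⟩, LinearMap.mem_range_self _ _,
      XM.ext fun i => by rw [Submodule.coe_add, Col.add_apply, Xy_apply, X1_apply]; exact h i⟩
  · rintro ⟨l, k, hk, rfl⟩
    have h1 : ∀ i, (Xy M c l + k).1 i = yz M c (l.1 i) + k.1 i := fun i => by
      rw [Submodule.coe_add, Col.add_apply, Xy_apply]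
    refine ⟨(mem_W0 ρ c).2 fun i => ?_, (hS.gam_eq_zero _ _ _).2 fun i => ?_⟩
    · rw [h1, map_add, beta_yz, zero_add]
      exact beta_eq_zero ρ c _ (mem_ΦL.1 (k.2 i)) fun d => (mem_KK ρ).1 hk i _
    · have : ww ρ (k.1 i) = 0 := funext fun j => (mem_KK ρ).1 hk i (.inr j)
      rw [h1, map_add, this, add_zero, ww_yz, map_sub, hS.z, map_smul, sub_self]

theorem pd_QK {n : ℕ} (hn : 3 ≤ n) : PD AA (XM (ΦL M (0 + 1)) × KK ρ 0) n :=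
  ses_prod.pd₂ (pd_L M _ (by omega) (by omega) (by omega)) ((pd_K ρ 0 le_rfl (by omega)).mono hn)

theorem Step.fin (hS : Step ρ c ρ' π) {m : ℕ} (hm : 3 ≤ m) (h : PD AA (XX ρ' (c - 1)) m) :
    PD AA (XX ρ c) (m + 2) := by
  have h1 : PD AA (V1 ρ c) m := hS.sesC.pd₂ ((pd_K ρ _ (by omega) (by omega)).mono hm) h
  obtain ⟨_, _, hD⟩ := hS.sesD
  have h2 := hD.pd₃ h1 (pd_QK (by omega))
  have h3 := (ses_ker _ hS.gam0_surj).pd₂ h2 (h.mono (by omega))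
  exact (ses_ker _ (Xb_surj ρ c)).pd₃ h3 (pd_L M _ (by omega) (by omega) (by omega))

theorem Step.low (hS : Step ρ c ρ' π) {d : ℕ} (hd : 3 ≤ d) (h : PD AA (XX ρ' (c - 1)) (d + 3))
    (h' : PD AA (XX ρ c) (d + 3)) : PD AA (XX ρ' (c - 1)) (d + 1) := by
  have h1 := (ses_ker _ (Xb_surj ρ c)).pd₁ (pd_L M _ (by omega) (by omega) (by omega)) h'
  have h2 := (ses_ker _ hS.gam0_surj).pd₁ h1 h
  obtain ⟨_, _, hD⟩ := hS.sesD
  have h3 := hD.pd₁ (pd_QK (by omega)) h2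
  exact hS.sesC.pd₃ ((pd_K ρ _ (by omega) (by omega)).mono hd) h3

/-- the filtration concentrated at the last vertex -/
noncomputable def ΦS (ρ : U →ₐ[ℂ] Module.End ℂ M) (c : ℂ) : MFilt 𝒢R (Mod ρ c) where
  F b := if 4 ≤ b then ⊤ else ⊥
  smul_mem := by
    intro a b r y hr hy
    by_cases hb : 4 ≤ b
    · by_cases ha : 0 ≤ a
      · rw [if_pos (by omega)]; trivial
      · have : r.fst = 0 := Polynomial.ext fun d => F_neg (n := a - d) (by omega) (hr.1 d)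
        rw [Mod.smul_def, this, map_zero, map_zero]
        exact AddSubgroup.zero_mem _
    · rw [if_neg hb, AddSubgroup.mem_bot] at hy
      rw [hy, smul_zero]
      exact AddSubgroup.zero_mem _

omit [FiniteDimensional ℂ M] in
theorem van_L {M₁ : Type} [AddCommGroup M₁] [Module ℂ M₁] (a : ℤ) (h0 : 0 ≤ a) (h3 : a ≤ 3) :
    Van AA (XM (ΦL M₁ a)) (XM (ΦS ρ c)) 0 ∧ Van AA (XM (ΦT M₁ a)) (XM (ΦS ρ c)) 0 := by
  obtain ⟨j, hj, ⟨h⟩, ⟨h'⟩⟩ := free_ΦL M₁ a h0 (by omega)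
  have : ∀ y ∈ (ΦS ρ c).F j, y = 0 := fun y hy => by
    change y ∈ (if (4 : ℤ) ≤ j then ⊤ else ⊥ : AddSubgroup (Mod ρ c)) at hy
    rwa [if_neg (by omega), AddSubgroup.mem_bot] at hy
  exact ⟨van_zero_iff.2 (h.hom_eq_zero this), van_zero_iff.2 (h'.hom_eq_zero this)⟩

theorem Step.base (hS : Step ρ c ρ' π) [Subsingleton M'] [Nontrivial M] :
    ¬ PD AA (XX ρ c) 4 := by
  intro h
  have hX' : Subsingleton (XX ρ' (c - 1)) :=
    ⟨fun x y => XM.ext fun i => Subsingleton.elim (α := M') _ _⟩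
  have hX : ∀ n, PD AA (XX ρ' (c - 1)) n := PD.of_subsingleton
  have h1 := (ses_ker _ (Xb_surj ρ c)).pd₁ (pd_L M _ (by omega) (by omega) (by omega)) h
  have h2 := (ses_ker _ hS.gam0_surj).pd₁ h1 (hX _)
  have hK0 : Van AA (KK ρ 0) (XM (ΦS ρ c)) 2 :=
    (ses2 ρ 0).van₃ ((ses3 ρ _).van₃ (van_L _ (by omega) (by omega)).1
      ((pd_T M _ (by omega) (by omega) le_rfl).van le_rfl))
      ((pd_T M _ (by omega) (by omega) le_rfl).van (by omega))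
  obtain ⟨_, _, hD⟩ := hS.sesD
  have h3 : Van AA (V1 ρ c) (XM (ΦS ρ c)) 2 :=
    hD.van₁ (ses_prod.van₂ ((pd_L M _ (by omega) (by omega) le_rfl).van (by omega)) hK0)
      (h2.van le_rfl)
  have h4 := hS.sesC.van₁ h3 ((hX 0).van (by omega))
  have h5 := (ses2 ρ _).van₁ ((pd_T M _ (by omega) (by omega) le_rfl).van le_rfl) h4
  have h6 := (ses3 ρ _).van₁ (van_L _ (by omega) (by omega)).2 h5
  let φ : XM (ΦL M (0 + 1 + 1 + 1 + 1)) →ₗ[AA] XM (ΦS ρ c) :=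
    XMap _ _ (beta ρ c) fun i y hy => by
      change _ ∈ (if (4 : ℤ) ≤ i then ⊤ else ⊥ : AddSubgroup (Mod ρ c))
      split_ifs with hi
      · trivial
      · rw [AddSubgroup.mem_bot, beta_apply]
        refine Finset.sum_eq_zero fun t _ => ?_
        have : (y t).fst = 0 := Polynomial.ext fun d =>
          F_neg (n := (i : ℤ) - (0 + 1 + 1 + 1 + 1) - d) (by omega) ((mem_ΦL.1 hy t).1 d)
        rw [this, map_zero, map_zero]
        rfl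
  have hφ := van_zero_iff.1 h6 φ
  obtain ⟨m, hm⟩ := exists_ne (0 : M)
  obtain ⟨l, hl, hl'⟩ := beta_surj ρ c m
  let v : XM (ΦL M (0 + 1 + 1 + 1 + 1)) := ⟨fun i => if i = 4 then l else 0, fun i => by
    by_cases hi : i = 4
    · subst hi
      simp only [if_true]
      exact mem_ΦL.2 (hl.mono (by simp))
    · simp only [if_neg hi]
      exact AddSubgroup.zero_mem _⟩
  have : (φ v).1 4 = m := by
    rw [XMap_apply]
    exact hl'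
  rw [hφ] at this
  exact hm this.symm

end level

end Crest.Agent.FinDim
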