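import Mathlib
import Crest.Agent.FinDim.Main

/-! The eigenspaces of the split Casimir and the main induction. -/

set_option autoImplicit false

namespace Crest.Agent.FinDim

open Polynomial U

section eig

variable {M : Type} [AddCommGroup M] [Module ℂ M] (ρ : U →ₐ[ℂ] Module.End ℂ M) (c : ℂ)

/-- eigenspace of the split Casimir -/
noncomputable def Eig : Submodule ℂ (Fin 2 → M) where
  carrier := {w | matAct ρ Z w = c • w}
  add_mem' := fun {a b} ha hb => by
    change matAct ρ Z (a + b) = c • (a + b)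
    rw [map_add, ha, hb, smul_add]
  zero_mem' := by simp
  smul_mem' := fun x a ha => by
    change matAct ρ Z (x • a) = c • (x • a)
    rw [map_smul, ha, smul_comm]

theorem mem_Eig {w : Fin 2 → M} : w ∈ Eig ρ c ↔ matAct ρ Z w = c • w := Iff.rfl

theorem Z_Del (u : U) (w : Fin 2 → M) :
    matAct ρ Z (matAct ρ (Del u) w) = matAct ρ (Del u) (matAct ρ Z w) := by
  rw [← Module.End.mul_apply, ← map_mul, ← (Del_comm_Z u).eq, map_mul, Module.End.mul_apply]

theorem Del_mem_Eig (u : U) (w : Fin 2 → M) (hw : w ∈ Eig ρ c) :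
    matAct ρ (Del u) w ∈ Eig ρ c := by
  rw [mem_Eig] at hw ⊢
  rw [Z_Del, hw, map_smul]

/-- the representation on the eigenspace -/
noncomputable def rhoE : U →ₐ[ℂ] Module.End ℂ (Eig ρ c) where
  toFun u := (matAct ρ (Del u)).restrict (Del_mem_Eig ρ c u)
  map_one' := by ext1 w; ext1; simp
  map_mul' u v := by ext1 w; ext1; simp
  map_zero' := by ext1 w; ext1; simp
  map_add' u v := by ext1 w; ext1; simp
  commutes' x := by ext1 w; ext1; simp

theorem rhoE_apply (u : U) (w : Eig ρ c) : (rhoE ρ c u w).1 = matAct ρ (Del u) w.1 := rfl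

/-- the Casimir acts by the scalar `c² + 2 c` -/
def Typ : Prop := ∀ m, ρ cas m = (c ^ 2 + 2 * c) • m

variable {ρ c}

theorem Typ.diag (hT : Typ ρ c) (w : Fin 2 → M) :
    matAct ρ !![cas, 0; 0, cas] w = (c ^ 2 + 2 * c) • w := by
  ext i
  fin_cases i <;> simp [matAct_apply, hT _]

theorem Typ.quad (hT : Typ ρ c) (w : Fin 2 → M) :
    matAct ρ Z (matAct ρ Z w) + (matAct ρ Z w + matAct ρ Z w) = (c ^ 2 + 2 * c) • w := by
  rw [← hT.diag, ← Z_sq]
  simp

theorem Typ.eig (hT : Typ ρ c) : Typ (rhoE ρ c) (c - 1) := by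
  intro w
  ext1
  rw [rhoE_apply, Del_cas]
  simp only [map_sub, map_add, map_one, LinearMap.sub_apply, LinearMap.add_apply, hT.diag,
    Module.End.one_apply, (mem_Eig ρ c).1 w.2, Submodule.coe_smul]
  module

theorem Typ.neg (hT : Typ ρ c) : Typ ρ (-c - 2) := fun m => by
  rw [hT m]; congr 1; ring

theorem Typ.neg' (hT : Typ ρ (-c - 2)) : Typ ρ c := fun m => by
  rw [hT m]; congr 1; ring

/-- projection onto the eigenspace -/
noncomputable def Typ.pr (hT : Typ ρ c) : (Fin 2 → M) →ₗ[ℂ] Eig ρ c :=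
  LinearMap.codRestrict _ ((2 * c + 2)⁻¹ • (matAct ρ Z + (c + 2) • LinearMap.id)) fun w => by
    rw [mem_Eig]
    simp only [LinearMap.smul_apply, LinearMap.add_apply, LinearMap.id_apply, map_smul, map_add]
    have := hT.quad w
    linear_combination (norm := module) (2 * c + 2)⁻¹ • this

theorem Typ.pr_apply (hT : Typ ρ c) (w : Fin 2 → M) :
    (hT.pr w).1 = (2 * c + 2)⁻¹ • (matAct ρ Z w + (c + 2) • w) := rfl

theorem Typ.pr_of_mem (hT : Typ ρ c) (hc : 2 * c + 2 ≠ 0) (w : Fin 2 → M)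
    (hw : matAct ρ Z w = c • w) : (hT.pr w).1 = w := by
  rw [hT.pr_apply, hw, ← add_smul, smul_smul, show c + (c + 2) = 2 * c + 2 by ring,
    inv_mul_cancel₀ hc, one_smul]

theorem Typ.step (hT : Typ ρ c) (hc : 2 * c + 2 ≠ 0) : Step ρ c (rhoE ρ c) hT.pr where
  del u w := by
    ext1
    rw [rhoE_apply, hT.pr_apply, hT.pr_apply, Z_Del, map_smul, map_add, map_smul]
  z w := by
    ext1
    rw [Submodule.coe_smul, hT.pr_apply, hT.pr_apply]
    have := hT.quad w
    linear_combination (norm := module) (2 * c + 2)⁻¹ • this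
  ker w hw := by
    have h1 := congrArg Subtype.val hw
    rw [hT.pr_apply, Submodule.coe_zero, smul_eq_zero] at h1
    have h2 := h1.resolve_left (inv_ne_zero hc)
    refine ⟨-(2 * c + 2)⁻¹ • w, ?_⟩
    rw [map_smul, eq_neg_of_add_eq_zero_left h2, ← neg_smul, smul_smul, smul_smul, ← sub_smul]
    have : -(2 * c + 2)⁻¹ * -(c + 2) - c * -(2 * c + 2)⁻¹ = 1 := by
      have := mul_inv_cancel₀ hc
      linear_combination this
    rw [this, one_smul]
  inj w hw h0 := by
    rw [← hT.pr_of_mem hc w hw, h0, Submodule.coe_zero]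
  surj m := ⟨m.1, m.2, Subtype.ext (hT.pr_of_mem hc _ m.2)⟩

theorem Typ.nontrivial (hT : Typ ρ c) (hc : 2 * c + 2 ≠ 0) (hc0 : c ≠ 0) [Nontrivial M] :
    Nontrivial (Eig ρ c) := by
  by_contra hs
  rw [not_nontrivial_iff_subsingleton] at hs
  have h1 : ∀ w, matAct ρ Z w + (c + 2) • w = 0 := fun w => by
    have h1 := congrArg Subtype.val (Subsingleton.elim (hT.pr w) 0)
    rw [hT.pr_apply, Submodule.coe_zero, smul_eq_zero] at h1
    exact h1.resolve_left (inv_ne_zero hc)
  obtain ⟨m, hm⟩ := exists_ne (0 : M)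
  have h2 := congrFun (h1 ![m, 0]) 0
  have h3 := congrFun (h1 ![0, m]) 1
  simp only [Z, matAct_apply, Pi.add_apply, Pi.smul_apply, Fin.sum_univ_two, Matrix.of_apply,
    Matrix.cons_val_zero, Matrix.cons_val_one, Matrix.cons_val', Matrix.cons_val_fin_one,
    map_zero, map_sub, map_neg, map_add, map_one, LinearMap.sub_apply, LinearMap.neg_apply,
    LinearMap.add_apply, Module.End.one_apply, Pi.zero_apply] at h2 h3
  have h4 : (2 * c) • m = 0 := by linear_combination (norm := module) h2 + h3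
  rw [smul_eq_zero] at h4
  rcases h4 with h4 | h4
  · exact hc0 (by simpa using h4)
  · exact hm h4

theorem trace_matAct [FiniteDimensional ℂ M] (a : Mat) :
    LinearMap.trace ℂ _ (matAct ρ a) = LinearMap.trace ℂ _ (ρ (a 0 0 + a 1 1)) := by
  have h1 : matAct ρ a = ∑ i, ∑ j, LinearMap.single ℂ (fun _ => M) i ∘ₗ
      (ρ (a i j) ∘ₗ LinearMap.proj j) := by
    refine LinearMap.ext fun w => funext fun i => ?_
    fin_cases i <;> simp [matAct_apply]
  have h2 : ∀ i j : Fin 2, LinearMap.trace ℂ _ (LinearMap.single ℂ (fun _ => M) i ∘ₗ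
      (ρ (a i j) ∘ₗ LinearMap.proj j)) = if i = j then LinearMap.trace ℂ _ (ρ (a i j)) else 0 := by
    intro i j
    rw [LinearMap.trace_comp_comm']
    split_ifs with h
    · subst h
      congr 1
      ext m
      simp
    · rw [← map_zero (LinearMap.trace ℂ M)]
      congr 1
      ext m
      simp [Pi.single_eq_of_ne (Ne.symm h)]
  rw [h1]
  simp only [map_sum, h2]
  simp

theorem Typ.subsingleton [FiniteDimensional ℂ M] (hT : Typ ρ 0) : Subsingleton (Eig ρ 0) := by
  have hp : LinearMap.IsProj (Eig ρ 0) ((Eig ρ 0).subtype ∘ₗ hT.pr) :=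
    ⟨fun w => (hT.pr w).2, fun w hw => hT.pr_of_mem (by norm_num) w hw⟩
  have h1 := hp.trace
  have h2 : (Eig ρ 0).subtype ∘ₗ hT.pr = (2 : ℂ)⁻¹ • matAct ρ (Z + (1 + 1)) := by
    refine LinearMap.ext fun w => ?_
    change (hT.pr w).1 = _
    rw [hT.pr_apply]
    simp only [map_add, map_one, LinearMap.smul_apply, LinearMap.add_apply, Module.End.one_apply]
    module
  have h3 : (Z + (1 + 1)) 0 0 + (Z + (1 + 1)) 1 1 = 0 := by
    simp only [Z, Matrix.add_apply, Matrix.one_apply_eq, Matrix.of_apply, Matrix.cons_val',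
      Matrix.cons_val_zero, Matrix.cons_val_one, Matrix.cons_val_fin_one]
    abel
  rw [h2, map_smul, trace_matAct, h3, map_zero, map_zero, smul_zero] at h1
  have h4 : Module.finrank ℂ (Eig ρ 0) = 0 := by exact_mod_cast h1.symm
  exact Module.finrank_zero_iff.1 h4

end eig

theorem main_ind (n : ℕ) : ∀ (M : Type) [AddCommGroup M] [Module ℂ M] [FiniteDimensional ℂ M]
    [Nontrivial M] (ρ : U →ₐ[ℂ] Module.End ℂ M), Typ ρ n →
    PD AA (XX ρ n) (2 * n + 5) ∧ ¬ PD AA (XX ρ n) (2 * n + 4) := by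
  induction n with
  | zero =>
    intro M _ _ _ _ ρ hT
    rw [Nat.cast_zero] at hT ⊢
    have := hT.subsingleton
    have hS := hT.step (by norm_num)
    have hX' : Subsingleton (XX (rhoE ρ 0) (0 - 1)) :=
      ⟨fun x y => XM.ext fun i => Subsingleton.elim (α := Eig ρ 0) _ _⟩
    exact ⟨hS.fin le_rfl (PD.of_subsingleton 3), hS.base⟩
  | succ n ih =>
    intro M _ _ _ _ ρ hT
    have hc : 2 * ((n + 1 : ℕ) : ℂ) + 2 ≠ 0 := by
      have : (2 * (n + 1) + 2 : ℕ) ≠ 0 := by omega
      exact_mod_cast this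
    have := hT.nontrivial hc (by exact_mod_cast Nat.succ_ne_zero n)
    have hS := hT.step hc
    have hn : ((n + 1 : ℕ) : ℂ) - 1 = n := by push_cast; ring
    have ih' := ih _ (rhoE ρ ((n + 1 : ℕ) : ℂ)) (hn ▸ hT.eig)
    rw [← hn] at ih'
    exact ⟨hS.fin (m := 2 * n + 5) (by omega) ih'.1, fun h =>
      ih'.2 (hS.low (d := 2 * n + 3) (by omega) (ih'.1.mono (by omega)) h)⟩

theorem exists_typ (n : ℕ) : ∃ (M : Type) (_ : AddCommGroup M) (_ : Module ℂ M)
    (_ : FiniteDimensional ℂ M) (_ : Nontrivial M) (ρ : U →ₐ[ℂ] Module.End ℂ M), Typ ρ n := by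
  induction n with
  | zero =>
    refine ⟨ℂ, inferInstance, inferInstance, inferInstance, inferInstance,
      lift 0 0 0 (by simp) (by simp) (by simp), fun m => ?_⟩
    simp [cas]
  | succ n ih =>
    obtain ⟨M, _, _, _, _, ρ, hT⟩ := ih
    have h1 : 2 * (-(n : ℂ) - 2) + 2 ≠ 0 := by
      have : (2 * (-(n : ℤ) - 2) + 2) ≠ 0 := by omega
      exact_mod_cast this
    have h2 : (-(n : ℂ) - 2) ≠ 0 := by
      have : (-(n : ℤ) - 2) ≠ 0 := by omega
      exact_mod_cast this
    refine ⟨Eig ρ (-(n : ℂ) - 2), inferInstance, inferInstance, inferInstance,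
      hT.neg.nontrivial h1 h2, rhoE ρ _, Typ.neg' ?_⟩
    have := hT.neg.eig
    rwa [show -(n : ℂ) - 2 - 1 = -((n + 1 : ℕ) : ℂ) - 2 by push_cast; ring] at this

end Crest.Agent.FinDim
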